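import Mathlib

namespace Vale.Agent.Helper27.P201

open Finset

variable {K G A : Type*} [Semiring K] [Group G]

theorem coeff_key (α β : MonoidAlgebra K G) (h : α * β = 0) (x : G) :
    ∑ g ∈ α.coeff.support, α.coeff g * β.coeff (g⁻¹ * x) = 0 := by
  have h1 := congrArg (fun γ : MonoidAlgebra K G => γ.coeff x) h
  simp only [MonoidAlgebra.coeff_mul_apply_left, MonoidAlgebra.coeff_zero, Finsupp.coe_zero,
    Pi.zero_apply] at h1
  exact h1

theorem support_nonempty_of_ne_zero (α : MonoidAlgebra K G) (hα : α ≠ 0) :
    α.coeff.support.Nonempty := by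
  rw [Finsupp.support_nonempty_iff]
  intro h0
  exact hα (MonoidAlgebra.coeff_eq_zero.mp h0)

variable [NoZeroDivisors K]

/-- A nonzero element with at most two terms is not a left zero divisor. -/
theorem two_term (hG : ∀ (g : G) (n : ℕ), 0 < n → g ^ n = 1 → g = 1)
    (α β : MonoidAlgebra K G) (hα : α ≠ 0) (hcard : α.coeff.support.card ≤ 2)
    (h : α * β = 0) : β = 0 := by
  classical
  by_contra hβ
  have hβ' := support_nonempty_of_ne_zero β hβ
  have hα' := support_nonempty_of_ne_zero α hα
  have key := coeff_key α β h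
  obtain ⟨g, hg⟩ := hα'
  by_cases hc : α.coeff.support = {g}
  · obtain ⟨s, hs⟩ := hβ'
    have h1 := key (g * s)
    rw [hc, Finset.sum_singleton, inv_mul_cancel_left] at h1
    rcases mul_eq_zero.mp h1 with h2 | h2
    · exact (Finsupp.mem_support_iff.mp hg) h2
    · exact (Finsupp.mem_support_iff.mp hs) h2
  · obtain ⟨h', hh', hne⟩ : ∃ h' ∈ α.coeff.support, h' ≠ g := by
      by_contra hcon
      push Not at hcon
      apply hc
      ext z
      rw [Finset.mem_singleton]
      constructor
      · intro hz
        exact hcon z hz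
      · rintro rfl
        exact hg
    have hsupp : α.coeff.support = {g, h'} := by
      symm
      apply Finset.eq_of_subset_of_card_le
      · intro z hz
        rw [Finset.mem_insert, Finset.mem_singleton] at hz
        rcases hz with rfl | rfl <;> assumption
      · rw [Finset.card_pair hne.symm]
        exact hcard
    have key2 : ∀ x : G,
        α.coeff g * β.coeff (g⁻¹ * x) + α.coeff h' * β.coeff (h'⁻¹ * x) = 0 := by
      intro x
      have h1 := key x
      rw [hsupp, Finset.sum_pair hne.symm] at h1
      exact h1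
    have step : ∀ s ∈ β.coeff.support, h'⁻¹ * g * s ∈ β.coeff.support := by
      intro s hs
      rw [Finsupp.mem_support_iff] at hs ⊢
      intro hzero
      have h1 := key2 (g * s)
      rw [inv_mul_cancel_left, ← mul_assoc, hzero, mul_zero, add_zero] at h1
      rcases mul_eq_zero.mp h1 with h2 | h2
      · exact (Finsupp.mem_support_iff.mp hg) h2
      · exact hs h2
    obtain ⟨s, hs⟩ := hβ'
    have all : ∀ n : ℕ, (h'⁻¹ * g) ^ n * s ∈ β.coeff.support := by
      intro n
      induction n with
      | zero => simpa using hs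
      | succ n ih =>
        have h1 := step _ ih
        rwa [← mul_assoc, ← pow_succ'] at h1
    have hninj : ¬ Function.Injective (fun n : ℕ => (h'⁻¹ * g) ^ n * s) := by
      intro hinj
      have h1 : Set.Infinite (Set.range (fun n : ℕ => (h'⁻¹ * g) ^ n * s)) :=
        Set.infinite_range_of_injective hinj
      apply h1
      apply Set.Finite.subset (β.coeff.support.finite_toSet)
      rintro _ ⟨n, rfl⟩
      exact all n
    rw [Function.Injective] at hninj
    push Not at hninj
    obtain ⟨n, m, hnm, hne'⟩ := hninj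
    have hpow : (h'⁻¹ * g) ^ n = (h'⁻¹ * g) ^ m := mul_right_cancel hnm
    have ht1 : h'⁻¹ * g = 1 := by
      rcases lt_or_gt_of_ne hne' with hlt | hlt
      · apply hG _ (m - n) (by omega)
        have h1 : (h'⁻¹ * g) ^ m = (h'⁻¹ * g) ^ n * (h'⁻¹ * g) ^ (m - n) := by
          rw [← pow_add]
          congr 1
          omega
        rw [h1] at hpow
        exact mul_eq_left.mp hpow.symm
      · apply hG _ (n - m) (by omega)
        have h1 : (h'⁻¹ * g) ^ n = (h'⁻¹ * g) ^ m * (h'⁻¹ * g) ^ (n - m) := by
          rw [← pow_add]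
          congr 1
          omega
        rw [h1] at hpow
        exact mul_eq_left.mp hpow
    exact hne (inv_mul_eq_one.mp ht1)

omit [NoZeroDivisors K] in
/-- Abstract production lemma: from a left zero divisor, its top part (with respect to a
degree function compatible with a right-ordered group) is again a left zero divisor. -/
theorem production [Group A] [LinearOrder A] [MulRightStrictMono A]
    (α β : MonoidAlgebra K G) (hβ : β ≠ 0) (h : α * β = 0)
    (f ψ₁ ψ₂ : G → A)
    (hf : ∀ g ∈ α.coeff.support, ∀ y : G, ψ₁ (g * y) = f g * ψ₂ y) :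
    ∃ β' : MonoidAlgebra K G, β' ≠ 0 ∧
      MonoidAlgebra.ofCoeff
        (α.coeff.filter (fun g => ∀ x ∈ α.coeff.support, f x ≤ f g)) * β' = 0 := by
  classical
  by_cases hα : α = 0
  · refine ⟨β, hβ, ?_⟩
    subst hα
    rw [MonoidAlgebra.coeff_zero, Finsupp.filter_zero, MonoidAlgebra.ofCoeff_zero, zero_mul]
  have hα' := support_nonempty_of_ne_zero α hα
  obtain ⟨g₀, hg₀, hmax⟩ := Finset.exists_max_image α.coeff.support f hα'
  have hβ' := support_nonempty_of_ne_zero β hβ
  obtain ⟨s₁, hs₁, hs₁max⟩ :=
    Finset.exists_max_image β.coeff.support (fun y => f g₀ * ψ₂ y) hβ'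
  refine ⟨MonoidAlgebra.ofCoeff (β.coeff.filter (fun y => ψ₂ y = ψ₂ s₁)), ?_, ?_⟩
  · intro hzero
    have h1 := congrArg (fun γ : MonoidAlgebra K G => γ.coeff s₁) hzero
    simp only [MonoidAlgebra.coeff_zero, Finsupp.coe_zero, Pi.zero_apply] at h1
    rw [Finsupp.filter_apply_pos (fun y => ψ₂ y = ψ₂ s₁) _ rfl] at h1
    exact (Finsupp.mem_support_iff.mp hs₁) h1
  · apply MonoidAlgebra.coeff_injective
    ext x
    rw [MonoidAlgebra.coeff_mul_apply_left]
    simp only [Finsupp.sum, Finsupp.support_filter,
      MonoidAlgebra.coeff_zero, Finsupp.coe_zero, Pi.zero_apply]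
    by_cases hx : ψ₁ x = f g₀ * ψ₂ s₁
    · have key := coeff_key α β h x
      rw [← Finset.sum_filter_add_sum_filter_not α.coeff.support
        (fun g => ∀ x ∈ α.coeff.support, f x ≤ f g)] at key
      have hrest : ∑ g ∈ α.coeff.support.filter
          (fun g => ¬ ∀ x ∈ α.coeff.support, f x ≤ f g),
          α.coeff g * β.coeff (g⁻¹ * x) = 0 := by
        apply Finset.sum_eq_zero
        intro g hg
        rw [Finset.mem_filter] at hg
        obtain ⟨hgs, hgp⟩ := hg
        have hlt : f g < f g₀ := by
          by_contra hcon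
          push Not at hcon
          apply hgp
          intro z hz
          exact (hmax z hz).trans hcon
        by_contra hne
        have hb : g⁻¹ * x ∈ β.coeff.support := by
          rw [Finsupp.mem_support_iff]
          intro h0
          apply hne
          rw [h0, mul_zero]
        have h1 := hf g hgs (g⁻¹ * x)
        rw [mul_inv_cancel_left] at h1
        have h2 := hs₁max _ hb
        have h3 : f g * ψ₂ (g⁻¹ * x) < f g₀ * ψ₂ (g⁻¹ * x) := mul_lt_mul_left hlt _
        rw [← h1, hx] at h3
        exact absurd h2 (not_le.mpr h3)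
      rw [hrest, add_zero] at key
      rw [← key]
      apply Finset.sum_congr rfl
      intro g hg
      rw [Finset.mem_filter] at hg
      obtain ⟨hgs, hgp⟩ := hg
      rw [Finsupp.filter_apply_pos (fun g => ∀ x ∈ α.coeff.support, f x ≤ f g) _ hgp]
      congr 1
      apply Finsupp.filter_apply_pos (fun y => ψ₂ y = ψ₂ s₁)
      have h1 := hf g hgs (g⁻¹ * x)
      rw [mul_inv_cancel_left] at h1
      have hfg : f g = f g₀ := le_antisymm (hmax g hgs) (hgp g₀ hg₀)
      rw [hfg, hx] at h1
      exact (mul_left_cancel h1).symm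
    · apply Finset.sum_eq_zero
      intro g hg
      rw [Finset.mem_filter] at hg
      obtain ⟨hgs, hgp⟩ := hg
      have hfg : f g = f g₀ := le_antisymm (hmax g hgs) (hgp g₀ hg₀)
      have h0 : (β.coeff.filter (fun y => ψ₂ y = ψ₂ s₁)) (g⁻¹ * x) = 0 := by
        apply Finsupp.filter_apply_neg (fun y => ψ₂ y = ψ₂ s₁)
        intro hq
        apply hx
        have h1 := hf g hgs (g⁻¹ * x)
        rw [mul_inv_cancel_left] at h1
        rw [h1, hfg, hq]
      rw [h0, mul_zero]

end Vale.Agent.Helper27.P201
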