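import Mathlib
import Vale.Agent.Helper27.P201.Core

namespace Vale.Agent.Helper27.P201

open Finset

variable {K G A : Type*} [Semiring K] [Group G]

/-- Extension of a homomorphism defined on a subgroup by the value `1` outside the subgroup. -/
noncomputable def extHom [Group A] (H : Subgroup G) (φ : H →* A) (g : G) : A :=
  open Classical in if hg : g ∈ H then φ ⟨g, hg⟩ else 1

theorem extHom_mem [Group A] (H : Subgroup G) (φ : H →* A) {g : G} (hg : g ∈ H) :
    extHom H φ g = φ ⟨g, hg⟩ := by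
  unfold extHom
  rw [dif_pos hg]

theorem extHom_mul [Group A] (H : Subgroup G) (φ : H →* A) {g h : G} (hg : g ∈ H)
    (hh : h ∈ H) : extHom H φ (g * h) = extHom H φ g * extHom H φ h := by
  rw [extHom_mem H φ hg, extHom_mem H φ hh, extHom_mem H φ (H.mul_mem hg hh), ← map_mul]
  rfl

theorem extHom_one [Group A] (H : Subgroup G) (φ : H →* A) : extHom H φ 1 = 1 := by
  rw [extHom_mem H φ H.one_mem]
  exact map_one φ

/-- A representative of the right coset `H y`. -/
noncomputable def rep (H : Subgroup G) (y : G) : G :=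
  (Quotient.mk (QuotientGroup.rightRel H) y).out

theorem rep_mem (H : Subgroup G) (y : G) : y * (rep H y)⁻¹ ∈ H := by
  have h1 : (QuotientGroup.rightRel H) (rep H y) y :=
    Quotient.mk_out (s := QuotientGroup.rightRel H) y
  exact QuotientGroup.rightRel_apply.mp h1

theorem rep_mul (H : Subgroup G) {g : G} (hg : g ∈ H) (y : G) : rep H (g * y) = rep H y := by
  unfold rep
  congr 1
  apply Quotient.sound
  show (QuotientGroup.rightRel H) (g * y) y
  rw [QuotientGroup.rightRel_apply]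
  have e : y * (g * y)⁻¹ = g⁻¹ := by group
  rw [e]
  exact H.inv_mem hg

theorem sub_production [Group A] [LinearOrder A] [MulRightStrictMono A]
    (H : Subgroup G) (φ : H →* A) (g₀ : G)
    (α β : MonoidAlgebra K G) (hβ : β ≠ 0) (h : α * β = 0)
    (hsupp : ∀ g ∈ α.coeff.support, g₀⁻¹ * g ∈ H) :
    ∃ β' : MonoidAlgebra K G, β' ≠ 0 ∧
      MonoidAlgebra.ofCoeff (α.coeff.filter (fun g => ∀ x ∈ α.coeff.support,
         extHom H φ (g₀⁻¹ * x) ≤ extHom H φ (g₀⁻¹ * g))) * β' = 0 := by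
  apply production α β hβ h (fun g => extHom H φ (g₀⁻¹ * g))
    (fun x => extHom H φ (g₀⁻¹ * x * (rep H (g₀⁻¹ * x))⁻¹))
    (fun y => extHom H φ (y * (rep H y)⁻¹))
  intro g hg y
  have hgH := hsupp g hg
  show extHom H φ (g₀⁻¹ * (g * y) * (rep H (g₀⁻¹ * (g * y)))⁻¹)
    = extHom H φ (g₀⁻¹ * g) * extHom H φ (y * (rep H y)⁻¹)
  have e1 : g₀⁻¹ * (g * y) = (g₀⁻¹ * g) * y := by group
  rw [e1, rep_mul H hgH y, mul_assoc, extHom_mul H φ hgH (rep_mem H y)]

variable [NoZeroDivisors K]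

theorem top_card_general [LinearOrder A]
    (hG : ∀ (g : G) (n : ℕ), 0 < n → g ^ n = 1 → g = 1)
    (α : MonoidAlgebra K G) (hα : α ≠ 0) (f : G → A)
    (β' : MonoidAlgebra K G) (hβ' : β' ≠ 0)
    (hprod : MonoidAlgebra.ofCoeff
      (α.coeff.filter (fun g => ∀ x ∈ α.coeff.support, f x ≤ f g)) * β' = 0) :
    3 ≤ (α.coeff.support.filter (fun g => ∀ x ∈ α.coeff.support, f x ≤ f g)).card := by
  classical
  by_contra hlt
  push Not at hlt
  have hne : MonoidAlgebra.ofCoeff
      (α.coeff.filter (fun g => ∀ x ∈ α.coeff.support, f x ≤ f g)) ≠ 0 := by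
    obtain ⟨g₀, hg₀, hmax⟩ :=
      Finset.exists_max_image α.coeff.support f (support_nonempty_of_ne_zero α hα)
    intro h0
    have h1 := congrArg (fun γ : MonoidAlgebra K G => γ.coeff g₀) h0
    simp only [MonoidAlgebra.coeff_zero, Finsupp.coe_zero, Pi.zero_apply] at h1
    rw [MonoidAlgebra.coeff_ofCoeff,
      Finsupp.filter_apply_pos (fun g => ∀ x ∈ α.coeff.support, f x ≤ f g) _ hmax] at h1
    exact (Finsupp.mem_support_iff.mp hg₀) h1
  refine hβ' (two_term hG _ β' hne ?_ hprod)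
  rw [MonoidAlgebra.coeff_ofCoeff, Finsupp.support_filter]
  have e : (α.coeff.support.filter (fun g => ∀ x ∈ α.coeff.support, f x ≤ f g))
      = {x ∈ α.coeff.support | ∀ x_1 ∈ α.coeff.support, f x_1 ≤ f x} := by
    ext g
    simp
  rw [← e]
  omega

theorem top_card [Group A] [LinearOrder A] [MulRightStrictMono A]
    (hG : ∀ (g : G) (n : ℕ), 0 < n → g ^ n = 1 → g = 1)
    (H : Subgroup G) (φ : H →* A) (g₀ : G)
    (α β : MonoidAlgebra K G) (hα : α ≠ 0) (hβ : β ≠ 0) (h : α * β = 0)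
    (hsupp : ∀ g ∈ α.coeff.support, g₀⁻¹ * g ∈ H) :
    3 ≤ (α.coeff.support.filter (fun g => ∀ x ∈ α.coeff.support,
         extHom H φ (g₀⁻¹ * x) ≤ extHom H φ (g₀⁻¹ * g))).card := by
  obtain ⟨β', hβ', hprod⟩ := sub_production H φ g₀ α β hβ h hsupp
  exact top_card_general hG α hα (fun g => extHom H φ (g₀⁻¹ * g)) β' hβ' hprod

theorem five_const [Group A] [LinearOrder A] [MulRightStrictMono A]
    (hG : ∀ (g : G) (n : ℕ), 0 < n → g ^ n = 1 → g = 1)
    (H : Subgroup G) (φ : H →* A) (g₀ : G)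
    (α β : MonoidAlgebra K G) (hα : α ≠ 0) (hβ : β ≠ 0) (h : α * β = 0)
    (hsupp : ∀ g ∈ α.coeff.support, g₀⁻¹ * g ∈ H) (hcard : α.coeff.support.card ≤ 5) :
    ∀ g ∈ α.coeff.support, ∀ h ∈ α.coeff.support,
      extHom H φ (g₀⁻¹ * g) = extHom H φ (g₀⁻¹ * h) := by
  classical
  have htop := top_card hG H φ g₀ α β hα hβ h hsupp
  have hbot := top_card (A := Aᵒᵈ) hG H (show H →* Aᵒᵈ from φ) g₀ α β hα hβ h hsupp
  have hbot' : 3 ≤ (α.coeff.support.filter (fun g => ∀ x ∈ α.coeff.support,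
         extHom H φ (g₀⁻¹ * g) ≤ extHom H φ (g₀⁻¹ * x))).card := hbot
  by_contra hcon
  have hdisj : Disjoint
      (α.coeff.support.filter (fun g => ∀ x ∈ α.coeff.support,
         extHom H φ (g₀⁻¹ * x) ≤ extHom H φ (g₀⁻¹ * g)))
      (α.coeff.support.filter (fun g => ∀ x ∈ α.coeff.support,
         extHom H φ (g₀⁻¹ * g) ≤ extHom H φ (g₀⁻¹ * x))) := by
    rw [Finset.disjoint_left]
    intro g hg1 hg2
    rw [Finset.mem_filter] at hg1 hg2
    apply hcon
    intro a ha b hb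
    exact (le_antisymm (hg1.2 a ha) (hg2.2 a ha)).trans (le_antisymm (hg2.2 b hb) (hg1.2 b hb))
  have hunion := Finset.card_union_of_disjoint hdisj
  have hsub : (α.coeff.support.filter (fun g => ∀ x ∈ α.coeff.support,
         extHom H φ (g₀⁻¹ * x) ≤ extHom H φ (g₀⁻¹ * g))) ∪
      (α.coeff.support.filter (fun g => ∀ x ∈ α.coeff.support,
         extHom H φ (g₀⁻¹ * g) ≤ extHom H φ (g₀⁻¹ * x))) ⊆ α.coeff.support :=
    Finset.union_subset (Finset.filter_subset _ _) (Finset.filter_subset _ _)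
  have hle := Finset.card_le_card hsub
  omega

end Vale.Agent.Helper27.P201
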