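import Mathlib
import Vale.Agent.Helper27.P201.Sub

namespace Vale.Agent.Helper27.P201

variable {K G : Type*} [Semiring K] [Group G]

/-- In a torsion-free group, a subgroup generated by finitely many pairwise commuting elements
has, for each nontrivial element, a homomorphism to `ℤ` not killing it. -/
theorem exists_hom_ne_one (hG : ∀ (g : G) (n : ℕ), 0 < n → g ^ n = 1 → g = 1)
    (k : Set G) (hk : k.Finite) (hcomm : ∀ x ∈ k, ∀ y ∈ k, x * y = y * x)
    (z : Subgroup.closure k) (hz : z ≠ 1) :
    ∃ φ : Subgroup.closure k →* Multiplicative ℤ, φ z ≠ 1 := by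
  classical
  letI : CommGroup (Subgroup.closure k) := Subgroup.closureCommGroupOfComm hcomm
  haveI : Group.FG (Subgroup.closure k) :=
    (Group.fg_iff_subgroup_fg _).2 ⟨hk.toFinset, by simp⟩
  haveI : IsMulTorsionFree (Subgroup.closure k) := by
    apply IsMulTorsionFree.of_not_isOfFinOrder
    intro a ha hfin
    obtain ⟨n, hn, hpow⟩ := isOfFinOrder_iff_pow_eq_one.mp hfin
    apply ha
    apply Subtype.ext
    apply hG a.1 n hn
    have h1 := congrArg Subtype.val hpow
    simpa using h1
  have hinj := AffineAddMonoid.embedding_injective (M := Additive (Subgroup.closure k))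
  have hne : AffineAddMonoid.embedding (Additive (Subgroup.closure k)) (Additive.ofMul z) ≠ 0 := by
    intro h0
    apply hz
    have h1 : Additive.ofMul z = 0 := hinj (by rw [h0, map_zero])
    exact h1
  have hne2 : FreeAbelianGroup.equivFinsupp _
      (AffineAddMonoid.embedding (Additive (Subgroup.closure k)) (Additive.ofMul z)) ≠ 0 := by
    intro h0
    apply hne
    exact (FreeAbelianGroup.equivFinsupp _).injective (by rw [h0, map_zero])
  obtain ⟨i, hi⟩ := DFunLike.ne_iff.mp hne2
  let ψ : Additive (Subgroup.closure k) →+ ℤ :=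
    (Finsupp.applyAddHom i).comp
      ((FreeAbelianGroup.equivFinsupp _).toAddMonoidHom.comp
        (AffineAddMonoid.embedding (Additive (Subgroup.closure k))))
  refine ⟨⟨⟨fun w => Multiplicative.ofAdd (ψ (Additive.ofMul w)), ?_⟩, ?_⟩, ?_⟩
  · show Multiplicative.ofAdd (ψ 0) = 1
    rw [map_zero]
    rfl
  · intro a b
    show Multiplicative.ofAdd (ψ (Additive.ofMul a + Additive.ofMul b)) = _
    rw [map_add]
    rfl
  · show Multiplicative.ofAdd (ψ (Additive.ofMul z)) ≠ 1
    intro h1
    apply hi
    exact h1

end Vale.Agent.Helper27.P201
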