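import Mathlib
import Vale.Agent.Helper27.P201.Sub

namespace Vale.Agent.Helper27.P201

open Finset

variable {K G : Type*}

/-- A nonzero element supported in a subgroup whose group algebra has no zero divisors is not a
left zero divisor in the group algebra of the whole group. -/
theorem regular_of_supported [Semiring K] [Group G] (N : Subgroup G)
    [NoZeroDivisors (MonoidAlgebra K N)]
    (γ β : MonoidAlgebra K G) (hγ : γ ≠ 0) (hsupp : ∀ g ∈ γ.coeff.support, g ∈ N)
    (h : γ * β = 0) : β = 0 := by
  classical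
  by_contra hβ
  obtain ⟨s, hs⟩ := support_nonempty_of_ne_zero β hβ
  obtain ⟨g₁, hg₁⟩ := support_nonempty_of_ne_zero γ hγ
  have inj1 : Set.InjOn (Subtype.val : N → G) (Subtype.val ⁻¹' ↑γ.coeff.support) :=
    Subtype.val_injective.injOn
  have inj2 : Set.InjOn (fun n : N => (n : G) * s) ((fun n : N => (n : G) * s) ⁻¹' ↑β.coeff.support) :=
    fun a _ b _ hab => Subtype.ext (mul_right_cancel hab)
  have hγ₀ : (MonoidAlgebra.ofCoeff (Finsupp.comapDomain Subtype.val γ.coeff inj1) :
      MonoidAlgebra K N) ≠ 0 := by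
    intro h0
    have h1 := congrArg (fun z : MonoidAlgebra K N => z.coeff ⟨g₁, hsupp g₁ hg₁⟩) h0
    simp only [MonoidAlgebra.coeff_ofCoeff, Finsupp.comapDomain_apply, MonoidAlgebra.coeff_zero,
      Finsupp.coe_zero, Pi.zero_apply] at h1
    exact (Finsupp.mem_support_iff.mp hg₁) h1
  have hβ₀ : (MonoidAlgebra.ofCoeff (Finsupp.comapDomain (fun n : N => (n : G) * s) β.coeff inj2) :
      MonoidAlgebra K N) ≠ 0 := by
    intro h0
    have h1 := congrArg (fun z : MonoidAlgebra K N => z.coeff 1) h0
    simp only [MonoidAlgebra.coeff_ofCoeff, Finsupp.comapDomain_apply, MonoidAlgebra.coeff_zero,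
      Finsupp.coe_zero, Pi.zero_apply, Subgroup.coe_one, one_mul] at h1
    exact (Finsupp.mem_support_iff.mp hs) h1
  have hprod : (MonoidAlgebra.ofCoeff (Finsupp.comapDomain Subtype.val γ.coeff inj1) :
      MonoidAlgebra K N) *
      MonoidAlgebra.ofCoeff (Finsupp.comapDomain (fun n : N => (n : G) * s) β.coeff inj2) = 0 := by
    apply MonoidAlgebra.coeff_injective
    ext n
    rw [MonoidAlgebra.coeff_mul_apply_left]
    simp only [Finsupp.sum, MonoidAlgebra.coeff_ofCoeff, Finsupp.comapDomain_support,
      Finsupp.comapDomain_apply, MonoidAlgebra.coeff_zero, Finsupp.coe_zero, Pi.zero_apply]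
    have key := coeff_key γ β h ((n : G) * s)
    have h2 := Finset.sum_preimage (Subtype.val : N → G) γ.coeff.support inj1
      (fun g => γ.coeff g * β.coeff (g⁻¹ * ((n : G) * s)))
      (by
        intro g hg hnot
        exfalso
        exact hnot ⟨⟨g, hsupp g hg⟩, rfl⟩)
    rw [key] at h2
    rw [← h2]
    apply Finset.sum_congr rfl
    intro m _
    congr 2
    simp [mul_assoc]
  rcases mul_eq_zero.mp hprod with h1 | h1
  · exact hγ₀ h1
  · exact hβ₀ h1

end Vale.Agent.Helper27.P201
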