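import Mathlib
import Vale.Agent.Helper27.P201.Domain

namespace Vale.Agent.Helper27.P201

open Finset

variable {K G : Type*}

/-- Supports of powers of `u⁻¹ * E`, where `E` is supported in the normal subgroup `N`. -/
theorem support_pow_twist [Field K] [Group G] (N : Subgroup G) [hN : N.Normal]
    (E : MonoidAlgebra K G) (hE : ∀ g ∈ E.coeff.support, g ∈ N) (u : G) (k : ℕ) :
    ∀ g ∈ ((MonoidAlgebra.single u⁻¹ (1 : K) * E) ^ k).coeff.support, u ^ k * g ∈ N := by
  classical
  induction k with
  | zero =>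
    intro g hg
    rw [pow_zero, MonoidAlgebra.one_def, MonoidAlgebra.coeff_single] at hg
    have h1 := Finsupp.support_single_subset hg
    rw [Finset.mem_singleton] at h1
    subst h1
    simp
  | succ k ih =>
    intro g hg
    rw [pow_succ] at hg
    have h1 := MonoidAlgebra.support_coeff_mul_subset _ _ hg
    rw [Finset.mem_mul] at h1
    obtain ⟨g₁, hg₁, g₂, hg₂, rfl⟩ := h1
    have h2 := MonoidAlgebra.support_coeff_single_mul_subset E (1 : K) u⁻¹ hg₂
    rw [Finset.mem_image] at h2
    obtain ⟨e, he, rfl⟩ := h2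
    have h3 := ih g₁ hg₁
    have h4 := hE e he
    have e1 : u ^ (k + 1) * (g₁ * (u⁻¹ * e)) = u * (u ^ k * g₁) * u⁻¹ * e := by
      rw [pow_succ']
      group
    rw [e1]
    exact N.mul_mem (hN.conj_mem _ h3 u) h4

/-- Elements `E + b u` with `E` supported in a normal subgroup `N` whose group algebra is a
domain, `u` of finite order modulo `N`, and `E` without left inverse, are left regular. -/
theorem linear_regular [Field K] [Group G] (N : Subgroup G) [hN : N.Normal]
    [NoZeroDivisors (MonoidAlgebra K N)]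
    (E β : MonoidAlgebra K G) (hE : ∀ g ∈ E.coeff.support, g ∈ N) (u : G) (n : ℕ) (hn : 0 < n)
    (hun : u ^ n ∈ N) (b : K) (hb : b ≠ 0) (hE2 : ∀ F : MonoidAlgebra K G, F * E ≠ 1)
    (h : (E + MonoidAlgebra.single u b) * β = 0) : β = 0 := by
  classical
  obtain ⟨X, hX⟩ : ∃ X : MonoidAlgebra K G, X = MonoidAlgebra.single u⁻¹ (1 : K) * E := ⟨_, rfl⟩
  obtain ⟨t, ht⟩ : ∃ t : MonoidAlgebra K G, t = MonoidAlgebra.single (1 : G) (-b) := ⟨_, rfl⟩
  have h1 : (X - t) * β = 0 := by
    have e1 : X - t = MonoidAlgebra.single u⁻¹ (1 : K) * (E + MonoidAlgebra.single u b) := by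
      rw [mul_add, MonoidAlgebra.single_mul_single, inv_mul_cancel, one_mul, hX, ht,
        MonoidAlgebra.single_neg, sub_neg_eq_add]
    rw [e1, mul_assoc, h, mul_zero]
  have hcomm : Commute X t := by
    rw [Commute, SemiconjBy, ht]
    exact (MonoidAlgebra.single_one_comm (-b) X).symm
  have h2 : (X ^ n - t ^ n) * β = 0 := by
    rw [← hcomm.geom_sum₂_mul, mul_assoc, h1, mul_zero]
  have htn : t ^ n = MonoidAlgebra.single (1 : G) ((-b) ^ n) := by
    rw [ht, MonoidAlgebra.single_pow, one_pow]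
  have hc : (-b) ^ n ≠ 0 := pow_ne_zero _ (neg_ne_zero.mpr hb)
  apply regular_of_supported N (X ^ n - t ^ n) β _ _ h2
  · intro h0
    have h3 : X ^ n = t ^ n := sub_eq_zero.mp h0
    obtain ⟨m, rfl⟩ : ∃ m, n = m + 1 := ⟨n - 1, by omega⟩
    apply hE2 (MonoidAlgebra.single (1 : G) ((-b) ^ (m + 1))⁻¹ * X ^ m *
      MonoidAlgebra.single u⁻¹ (1 : K))
    rw [mul_assoc, mul_assoc, ← hX, ← pow_succ, h3, htn, MonoidAlgebra.single_mul_single, one_mul,
      inv_mul_cancel₀ hc, MonoidAlgebra.one_def]
  · intro g hg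
    have h4 : g ∈ (X ^ n).coeff.support ∪ (t ^ n).coeff.support := by
      rw [MonoidAlgebra.coeff_sub] at hg
      exact Finsupp.support_sub hg
    rw [Finset.mem_union] at h4
    rcases h4 with h4 | h4
    · rw [hX] at h4
      have h5 := support_pow_twist N E hE u n g h4
      have e1 : g = (u ^ n)⁻¹ * (u ^ n * g) := by group
      rw [e1]
      exact N.mul_mem (N.inv_mem hun) h5
    · rw [htn, MonoidAlgebra.coeff_single] at h4
      have h5 := Finsupp.support_single_subset h4
      rw [Finset.mem_singleton] at h5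
      rw [h5]
      exact N.one_mem

/-- If `E` is supported in a subgroup `N` with the unique product property and has a left
inverse in the group algebra of `G`, then `E` has at most one term. -/
theorem card_le_one_of_left_inv [Field K] [Group G] (N : Subgroup G) [UniqueProds N]
    (E F : MonoidAlgebra K G) (hE : ∀ g ∈ E.coeff.support, g ∈ N) (h : F * E = 1) :
    E.coeff.support.card ≤ 1 := by
  classical
  have : TwoUniqueProds N := UniqueProds.toTwoUniqueProds_of_group
  have inj : ∀ (f : G →₀ K), Set.InjOn (Subtype.val : N → G) (Subtype.val ⁻¹' ↑f.support) :=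
    fun f => Subtype.val_injective.injOn
  obtain ⟨E₀, hE₀⟩ : ∃ E₀ : MonoidAlgebra K N,
      E₀ = MonoidAlgebra.ofCoeff (Finsupp.comapDomain Subtype.val E.coeff (inj _)) := ⟨_, rfl⟩
  obtain ⟨F₀, hF₀⟩ : ∃ F₀ : MonoidAlgebra K N,
      F₀ = MonoidAlgebra.ofCoeff (Finsupp.comapDomain Subtype.val F.coeff (inj _)) := ⟨_, rfl⟩
  have hprod : F₀ * E₀ = 1 := by
    apply MonoidAlgebra.coeff_injective
    ext n
    rw [MonoidAlgebra.coeff_mul_apply_right]
    simp only [hE₀, hF₀, Finsupp.sum, MonoidAlgebra.coeff_ofCoeff, Finsupp.comapDomain_support,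
      Finsupp.comapDomain_apply]
    have key := congrArg (fun γ : MonoidAlgebra K G => γ.coeff (n : G)) h
    simp only [MonoidAlgebra.coeff_mul_apply_right, Finsupp.sum] at key
    have h2 := Finset.sum_preimage (Subtype.val : N → G) E.coeff.support (inj _)
      (fun e => F.coeff ((n : G) * e⁻¹) * E.coeff e)
      (by
        intro g hg hnot
        exact absurd ⟨⟨g, hE g hg⟩, rfl⟩ hnot)
    rw [key] at h2
    have e1 : (1 : MonoidAlgebra K G).coeff (n : G) = (1 : MonoidAlgebra K N).coeff n := by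
      rw [MonoidAlgebra.one_def, MonoidAlgebra.one_def, MonoidAlgebra.coeff_single,
        MonoidAlgebra.coeff_single, Finsupp.single_apply, Finsupp.single_apply]
      by_cases hn : (1 : N) = n
      · subst hn
        simp
      · have hn' : ¬ (1 : G) = (n : G) := fun hh => hn (Subtype.ext (by simpa using hh))
        rw [if_neg hn, if_neg hn']
    rw [← e1, ← h2]
    apply Finset.sum_congr rfl
    intro m _
    simp
  have hcard0 : E₀.coeff.support.card ≤ 1 := by
    by_contra hcon
    push Not at hcon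
    have hF0 : F₀.coeff.support.Nonempty := by
      apply support_nonempty_of_ne_zero
      intro h0
      rw [h0, zero_mul] at hprod
      have h3 := congrArg (fun γ : MonoidAlgebra K N => γ.coeff 1) hprod
      simp [MonoidAlgebra.one_def] at h3
    have h1 : 1 < F₀.coeff.support.card * E₀.coeff.support.card := by
      have h3 := Finset.card_pos.mpr hF0
      nlinarith
    obtain ⟨p1, hp1, p2, hp2, hne, hu1, hu2⟩ := TwoUniqueProds.uniqueMul_of_one_lt_card h1
    have c1 := MonoidAlgebra.coeff_mul_mul_of_uniqueMul hu1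
    have c2 := MonoidAlgebra.coeff_mul_mul_of_uniqueMul hu2
    rw [hprod] at c1 c2
    rw [Finset.mem_product] at hp1 hp2
    have n1 : F₀.coeff p1.1 * E₀.coeff p1.2 ≠ 0 :=
      mul_ne_zero (Finsupp.mem_support_iff.mp hp1.1) (Finsupp.mem_support_iff.mp hp1.2)
    have n2 : F₀.coeff p2.1 * E₀.coeff p2.2 ≠ 0 :=
      mul_ne_zero (Finsupp.mem_support_iff.mp hp2.1) (Finsupp.mem_support_iff.mp hp2.2)
    have e1 : p1.1 * p1.2 = 1 := by
      by_contra hx
      apply n1
      rw [← c1, MonoidAlgebra.one_def, MonoidAlgebra.coeff_single, Finsupp.single_apply,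
        if_neg (Ne.symm hx)]
    have e2 : p2.1 * p2.2 = 1 := by
      by_contra hx
      apply n2
      rw [← c2, MonoidAlgebra.one_def, MonoidAlgebra.coeff_single, Finsupp.single_apply,
        if_neg (Ne.symm hx)]
    have h5 := hu1 hp2.1 hp2.2 (e2.trans e1.symm)
    exact hne (Prod.ext h5.1.symm h5.2.symm)
  have hsub : E.coeff.support ⊆ E₀.coeff.support.image Subtype.val := by
    intro g hg
    rw [Finset.mem_image]
    refine ⟨⟨g, hE g hg⟩, ?_, rfl⟩
    rw [hE₀, MonoidAlgebra.coeff_ofCoeff, Finsupp.comapDomain_support, Finset.mem_preimage]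
    exact hg
  exact (Finset.card_le_card hsub).trans (Finset.card_image_le.trans hcard0)

/-- If `(E + b u) * β = 0` with `E ≠ 0` supported in a normal subgroup `N` whose group algebra is
a domain and `β ≠ 0`, then some positive power of `u` lies in `N`. -/
theorem exists_pow_mem [Field K] [Group G] (N : Subgroup G) [hN : N.Normal]
    [NoZeroDivisors (MonoidAlgebra K N)]
    (E β : MonoidAlgebra K G) (hE : ∀ g ∈ E.coeff.support, g ∈ N) (hE0 : E ≠ 0) (u : G)
    (b : K) (hβ : β ≠ 0)
    (h : (E + MonoidAlgebra.single u b) * β = 0) : ∃ n : ℕ, 0 < n ∧ u ^ n ∈ N := by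
  classical
  have step : ∀ s ∈ β.coeff.support, ∃ s' ∈ β.coeff.support, u * s' * s⁻¹ ∈ N := by
    intro s hs
    obtain ⟨βs, hβs⟩ : ∃ βs : MonoidAlgebra K G,
        βs = MonoidAlgebra.ofCoeff (β.coeff.filter (fun y => y * s⁻¹ ∈ N)) := ⟨_, rfl⟩
    have hβs0 : βs ≠ 0 := by
      intro h0
      have h1 := congrArg (fun γ : MonoidAlgebra K G => γ.coeff s) h0
      simp only [hβs, MonoidAlgebra.coeff_ofCoeff, MonoidAlgebra.coeff_zero, Finsupp.coe_zero,
        Pi.zero_apply] at h1
      rw [Finsupp.filter_apply_pos (fun y => y * s⁻¹ ∈ N) _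
        (by rw [mul_inv_cancel]; exact N.one_mem)] at h1
      exact (Finsupp.mem_support_iff.mp hs) h1
    have hEβs : E * βs ≠ 0 := fun h0 => hβs0 (regular_of_supported N E βs hE0 hE h0)
    obtain ⟨x, hx⟩ : ∃ x, (E * βs).coeff x ≠ 0 := by
      by_contra hcon
      push Not at hcon
      apply hEβs
      apply MonoidAlgebra.coeff_injective
      ext x
      simpa using hcon x
    rw [MonoidAlgebra.coeff_mul_apply_left, Finsupp.sum] at hx
    obtain ⟨g, hg, hgne⟩ := Finset.exists_ne_zero_of_sum_ne_zero hx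
    have hxs : x * s⁻¹ ∈ N := by
      have h1 : βs.coeff (g⁻¹ * x) ≠ 0 := fun h0 => hgne (by rw [h0, mul_zero])
      rw [hβs, MonoidAlgebra.coeff_ofCoeff] at h1
      have h2 : g⁻¹ * x * s⁻¹ ∈ N := by
        by_contra hnot
        exact h1 (Finsupp.filter_apply_neg (fun y => y * s⁻¹ ∈ N) _ hnot)
      have e1 : x * s⁻¹ = g * (g⁻¹ * x * s⁻¹) := by group
      rw [e1]
      exact N.mul_mem (hE g hg) h2
    have hEβ : (E * β).coeff x ≠ 0 := by
      rw [MonoidAlgebra.coeff_mul_apply_left, Finsupp.sum]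
      have e2 : ∑ a ∈ E.coeff.support, E.coeff a * β.coeff (a⁻¹ * x)
          = ∑ a ∈ E.coeff.support, E.coeff a * βs.coeff (a⁻¹ * x) := by
        apply Finset.sum_congr rfl
        intro a ha
        congr 1
        rw [hβs, MonoidAlgebra.coeff_ofCoeff]
        symm
        apply Finsupp.filter_apply_pos (fun y => y * s⁻¹ ∈ N)
        have e3 : a⁻¹ * x * s⁻¹ = a⁻¹ * (x * s⁻¹) := by group
        rw [e3]
        exact N.mul_mem (N.inv_mem (hE a ha)) hxs
      rw [e2]
      exact hx
    have h3 := congrArg (fun γ : MonoidAlgebra K G => γ.coeff x) h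
    simp only [add_mul, MonoidAlgebra.coeff_add, Finsupp.add_apply,
      MonoidAlgebra.coeff_single_mul_apply, MonoidAlgebra.coeff_zero, Finsupp.coe_zero,
      Pi.zero_apply] at h3
    refine ⟨u⁻¹ * x, ?_, ?_⟩
    · rw [Finsupp.mem_support_iff]
      intro h0
      rw [h0, mul_zero, add_zero] at h3
      exact hEβ h3
    · have e4 : u * (u⁻¹ * x) * s⁻¹ = x * s⁻¹ := by group
      rw [e4]
      exact hxs
  obtain ⟨s₀, hs₀⟩ := support_nonempty_of_ne_zero β hβ
  have orbit : ∀ k : ℕ, ∃ s ∈ β.coeff.support, u ^ k * s * s₀⁻¹ ∈ N := by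
    intro k
    induction k with
    | zero => exact ⟨s₀, hs₀, by simp⟩
    | succ k ih =>
      obtain ⟨s, hs, hk⟩ := ih
      obtain ⟨s', hs', hk'⟩ := step s hs
      refine ⟨s', hs', ?_⟩
      have e5 : u ^ (k + 1) * s' * s₀⁻¹
          = u ^ k * (u * s' * s⁻¹) * (u ^ k)⁻¹ * (u ^ k * s * s₀⁻¹) := by
        rw [pow_succ]
        group
      rw [e5]
      exact N.mul_mem (hN.conj_mem _ hk' _) hk
  choose f hf using orbit
  obtain ⟨i, j, hij, hfij⟩ := Finite.exists_ne_map_eq_of_infinite
    (fun k : ℕ => (⟨f k, (hf k).1⟩ : β.coeff.support))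
  have hfij' : f i = f j := congrArg Subtype.val hfij
  have main : ∀ i j : ℕ, i < j → f i = f j → u ^ (j - i) ∈ N := by
    intro i j hlt hfe
    have h1 := (hf i).2
    have h2 := (hf j).2
    rw [hfe] at h1
    have e6 : u ^ (j - i) = (u ^ j * f j * s₀⁻¹) * (u ^ i * f j * s₀⁻¹)⁻¹ := by
      rw [pow_sub u hlt.le]
      group
    rw [e6]
    exact N.mul_mem h2 (N.inv_mem h1)
  rcases lt_or_gt_of_ne hij with hlt | hlt
  · exact ⟨j - i, by omega, main i j hlt hfij'⟩
  · exact ⟨i - j, by omega, main j i hlt hfij'.symm⟩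

/-- Main theorem: a nonzero element all of whose support, except at most one point, lies in a
single coset of a normal subgroup with the unique product property, is left regular. -/
theorem coset_point [Field K] [Group G]
    (hG : ∀ (g : G) (n : ℕ), 0 < n → g ^ n = 1 → g = 1)
    (N : Subgroup G) [hN : N.Normal] [UniqueProds N]
    (α β : MonoidAlgebra K G) (hα : α ≠ 0) (g₀ h₀ : G)
    (hsupp : ∀ g ∈ α.coeff.support, g = g₀ ∨ g * h₀⁻¹ ∈ N)
    (h : α * β = 0) : β = 0 := by
  classical
  by_contra hβ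
  obtain ⟨α', hα'⟩ : ∃ α' : MonoidAlgebra K G,
      α' = α * MonoidAlgebra.single h₀⁻¹ (1 : K) := ⟨_, rfl⟩
  obtain ⟨β', hβ'⟩ : ∃ β' : MonoidAlgebra K G,
      β' = MonoidAlgebra.single h₀ (1 : K) * β := ⟨_, rfl⟩
  have hprod : α' * β' = 0 := by
    rw [hα', hβ', mul_assoc, ← mul_assoc (MonoidAlgebra.single h₀⁻¹ (1 : K)),
      MonoidAlgebra.single_mul_single, inv_mul_cancel, one_mul, ← MonoidAlgebra.one_def, one_mul, h]
  have hβ'0 : β' ≠ 0 := by
    intro h0
    apply hβ
    have e1 : β = MonoidAlgebra.single h₀⁻¹ (1 : K) * β' := by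
      rw [hβ', ← mul_assoc, MonoidAlgebra.single_mul_single, inv_mul_cancel, one_mul,
        ← MonoidAlgebra.one_def, one_mul]
    rw [e1, h0, mul_zero]
  have hα'0 : α' ≠ 0 := by
    intro h0
    apply hα
    have e1 : α = α' * MonoidAlgebra.single h₀ (1 : K) := by
      rw [hα', mul_assoc, MonoidAlgebra.single_mul_single, inv_mul_cancel, one_mul,
        ← MonoidAlgebra.one_def, mul_one]
    rw [e1, h0, zero_mul]
  have hcoeff : ∀ g, α'.coeff g = α.coeff (g * h₀) := by
    intro g
    rw [hα', MonoidAlgebra.coeff_mul_single_apply, inv_inv, mul_one]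
  obtain ⟨u, hu⟩ : ∃ u : G, u = g₀ * h₀⁻¹ := ⟨_, rfl⟩
  have hsupp' : ∀ g ∈ α'.coeff.support, g = u ∨ g ∈ N := by
    intro g hg
    rw [Finsupp.mem_support_iff, hcoeff] at hg
    rcases hsupp (g * h₀) (Finsupp.mem_support_iff.mpr hg) with h1 | h1
    · left
      rw [hu, ← h1]
      group
    · right
      rw [mul_inv_cancel_right] at h1
      exact h1
  apply hβ'0
  by_cases huN : u ∈ N
  · apply regular_of_supported N α' β' hα'0 _ hprod
    intro g hg
    rcases hsupp' g hg with h1 | h1
    · rw [h1]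
      exact huN
    · exact h1
  obtain ⟨b, hb⟩ : ∃ b : K, b = α'.coeff u := ⟨_, rfl⟩
  obtain ⟨E, hE⟩ : ∃ E : MonoidAlgebra K G, E = α' - MonoidAlgebra.single u b := ⟨_, rfl⟩
  have hEsupp : ∀ g ∈ E.coeff.support, g ∈ N := by
    intro g hg
    rw [Finsupp.mem_support_iff, hE, MonoidAlgebra.coeff_sub, Finsupp.sub_apply,
      MonoidAlgebra.coeff_single, Finsupp.single_apply] at hg
    by_cases hgu : u = g
    · exfalso
      apply hg
      rw [if_pos hgu, hb, hgu, sub_self]
    · rw [if_neg hgu, sub_zero] at hg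
      rcases hsupp' g (Finsupp.mem_support_iff.mpr hg) with h1 | h1
      · exact absurd h1.symm hgu
      · exact h1
  have hαE : α' = E + MonoidAlgebra.single u b := by rw [hE, sub_add_cancel]
  by_cases hb0 : b = 0
  · have e1 : α' = E := by rw [hαE, hb0, MonoidAlgebra.single_zero, add_zero]
    rw [e1] at hprod hα'0
    exact regular_of_supported N E β' hα'0 hEsupp hprod
  by_cases hcardE : E.coeff.support.card ≤ 1
  · apply two_term hG α' β' hα'0 _ hprod
    rw [hαE]
    calc (E + MonoidAlgebra.single u b).coeff.support.card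
        ≤ (E.coeff.support ∪ (MonoidAlgebra.single u b).coeff.support).card :=
          Finset.card_le_card Finsupp.support_add
      _ ≤ E.coeff.support.card + (MonoidAlgebra.single u b).coeff.support.card :=
          Finset.card_union_le _ _
      _ ≤ 1 + 1 := by
          apply Nat.add_le_add hcardE
          rw [MonoidAlgebra.coeff_single]
          exact (Finset.card_le_card Finsupp.support_single_subset).trans (by simp)
  · push Not at hcardE
    have hE0 : E ≠ 0 := by
      intro h0
      rw [h0] at hcardE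
      simp at hcardE
    rw [hαE] at hprod
    obtain ⟨n, hn, hun⟩ := exists_pow_mem N E β' hEsupp hE0 u b hβ'0 hprod
    apply linear_regular N E β' hEsupp u n hn hun b hb0 _ hprod
    intro F hF
    have h5 := card_le_one_of_left_inv N E F hEsupp hF
    omega

end Vale.Agent.Helper27.P201
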