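import Mathlib
import Vale.Agent.Helper27.P201.Linear

namespace Vale.Agent.Helper27.P201

open Finset

variable {K G : Type*}

/-- The inversion map on the group algebra: the coefficient of `x` in `invAlg α` is the
coefficient of `x⁻¹` in `α`. -/
noncomputable def invAlg [Semiring K] [Group G] (α : MonoidAlgebra K G) : MonoidAlgebra K G :=
  MonoidAlgebra.ofCoeff (Finsupp.equivMapDomain (Equiv.inv G) α.coeff)

theorem invAlg_coeff [Semiring K] [Group G] (α : MonoidAlgebra K G) (x : G) :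
    (invAlg α).coeff x = α.coeff x⁻¹ := by
  simp [invAlg, Finsupp.equivMapDomain_apply]

theorem invAlg_mul [CommSemiring K] [Group G] (α β : MonoidAlgebra K G) :
    invAlg (α * β) = invAlg β * invAlg α := by
  classical
  apply MonoidAlgebra.coeff_injective
  ext x
  rw [invAlg_coeff, MonoidAlgebra.coeff_mul_apply_left, MonoidAlgebra.coeff_mul_apply_right]
  simp only [Finsupp.sum]
  have hs : (invAlg α).coeff.support = α.coeff.support.map (Equiv.inv G).toEmbedding := rfl
  rw [hs, Finset.sum_map]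
  apply Finset.sum_congr rfl
  intro g _
  simp [invAlg_coeff, mul_comm]

theorem invAlg_eq_zero [Semiring K] [Group G] (β : MonoidAlgebra K G) (h : invAlg β = 0) :
    β = 0 := by
  apply MonoidAlgebra.coeff_injective
  ext x
  have h1 := congrArg (fun γ : MonoidAlgebra K G => γ.coeff x⁻¹) h
  simpa [invAlg_coeff] using h1

theorem invAlg_zero [Semiring K] [Group G] : invAlg (0 : MonoidAlgebra K G) = 0 := by
  apply MonoidAlgebra.coeff_injective
  ext x
  simp [invAlg_coeff]

/-- Two-sided version of `coset_point`. -/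
theorem coset_point_two_sided [Field K] [Group G]
    (hG : ∀ (g : G) (n : ℕ), 0 < n → g ^ n = 1 → g = 1)
    (N : Subgroup G) [hN : N.Normal] [UniqueProds N]
    (α : MonoidAlgebra K G) (hα : α ≠ 0) (g₀ h₀ : G)
    (hsupp : ∀ g ∈ α.coeff.support, g = g₀ ∨ g * h₀⁻¹ ∈ N)
    (β : MonoidAlgebra K G) : (α * β = 0 → β = 0) ∧ (β * α = 0 → β = 0) := by
  refine ⟨coset_point hG N α β hα g₀ h₀ hsupp, ?_⟩
  intro h
  apply invAlg_eq_zero
  have h1 : invAlg α * invAlg β = 0 := by
    rw [← invAlg_mul, h, invAlg_zero]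
  apply coset_point hG N (invAlg α) (invAlg β) (fun h0 => hα (invAlg_eq_zero α h0)) g₀⁻¹ h₀⁻¹ _ h1
  intro g hg
  rw [Finsupp.mem_support_iff, invAlg_coeff] at hg
  rcases hsupp g⁻¹ (Finsupp.mem_support_iff.mpr hg) with h2 | h2
  · left
    rw [← h2, inv_inv]
  · right
    have h3 := N.inv_mem (hN.conj_mem _ h2 h₀⁻¹)
    have e1 : g * h₀⁻¹⁻¹ = (h₀⁻¹ * (g⁻¹ * h₀⁻¹) * h₀⁻¹⁻¹)⁻¹ := by group
    rw [e1]
    exact h3

end Vale.Agent.Helper27.P201
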