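import Mathlib
import Vale.Agent.Helper27.P201.Sub

namespace Vale.Agent.Helper27.P201

open Finset

variable {K G A : Type*} [Semiring K] [Group G]

/-- If the extended homomorphism is constant on the translated set `g₀⁻¹ T`, then the
homomorphism on the subgroup generated by the quotients of `T` is trivial. -/
theorem hom_eq_one_of_const [Group A] (T : Finset G) (g₀ : G) (hg₀ : g₀ ∈ T)
    (φ : Subgroup.closure {z : G | ∃ g ∈ T, ∃ h ∈ T, z = g⁻¹ * h} →* A)
    (hconst : ∀ g ∈ T, ∀ h ∈ T,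
      extHom (Subgroup.closure {z : G | ∃ g ∈ T, ∃ h ∈ T, z = g⁻¹ * h}) φ (g₀⁻¹ * g)
        = extHom (Subgroup.closure {z : G | ∃ g ∈ T, ∃ h ∈ T, z = g⁻¹ * h}) φ (g₀⁻¹ * h)) :
    φ = 1 := by
  have hsupp : ∀ g ∈ T, g₀⁻¹ * g ∈ Subgroup.closure
      {z : G | ∃ g ∈ T, ∃ h ∈ T, z = g⁻¹ * h} :=
    fun g hg => Subgroup.subset_closure ⟨g₀, hg₀, g, hg, rfl⟩
  have hone : ∀ g (hg : g ∈ T), φ ⟨g₀⁻¹ * g, hsupp g hg⟩ = 1 := by
    intro g hg
    have h1 := hconst g hg g₀ hg₀
    rw [inv_mul_cancel, extHom_one, extHom_mem _ φ (hsupp g hg)] at h1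
    exact h1
  ext ⟨z, hz⟩
  rw [MonoidHom.one_apply]
  induction hz using Subgroup.closure_induction with
  | mem x hx =>
    obtain ⟨g, hg, k, hk, rfl⟩ := hx
    have e : (⟨g⁻¹ * k, Subgroup.subset_closure ⟨g, hg, k, hk, rfl⟩⟩ : Subgroup.closure
        {z : G | ∃ g ∈ T, ∃ h ∈ T, z = g⁻¹ * h})
        = (⟨g₀⁻¹ * g, hsupp g hg⟩)⁻¹ * ⟨g₀⁻¹ * k, hsupp k hk⟩ := by
      apply Subtype.ext
      simp only [Subgroup.coe_mul, Subgroup.coe_inv]
      group
    rw [e, map_mul, map_inv, hone g hg, hone k hk, inv_one, one_mul]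
  | one => exact map_one φ
  | mul x y hx hy ihx ihy =>
    have e : (⟨x * y, Subgroup.mul_mem _ hx hy⟩ : Subgroup.closure
        {z : G | ∃ g ∈ T, ∃ h ∈ T, z = g⁻¹ * h})
        = ⟨x, hx⟩ * ⟨y, hy⟩ := rfl
    rw [e, map_mul, ihx, ihy, one_mul]
  | inv x hx ih =>
    have e : (⟨x⁻¹, Subgroup.inv_mem _ hx⟩ : Subgroup.closure
        {z : G | ∃ g ∈ T, ∃ h ∈ T, z = g⁻¹ * h})
        = (⟨x, hx⟩)⁻¹ := rfl
    rw [e, map_inv, ih, inv_one]

/-- The part of `γ` on which a function `f` is maximal is nonzero when `γ` is nonzero. -/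
theorem top_part_ne_zero [LinearOrder A] (γ : MonoidAlgebra K G) (hγ : γ ≠ 0) (f : G → A) :
    MonoidAlgebra.ofCoeff
      (γ.coeff.filter (fun g => ∀ x ∈ γ.coeff.support, f x ≤ f g)) ≠ 0 := by
  classical
  obtain ⟨g₁, hg₁, hmax⟩ :=
    Finset.exists_max_image γ.coeff.support f (support_nonempty_of_ne_zero γ hγ)
  intro h0
  have h1 := congrArg (fun δ : MonoidAlgebra K G => δ.coeff g₁) h0
  simp only [MonoidAlgebra.coeff_zero, Finsupp.coe_zero, Pi.zero_apply] at h1
  rw [MonoidAlgebra.coeff_ofCoeff,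
    Finsupp.filter_apply_pos (fun g => ∀ x ∈ γ.coeff.support, f x ≤ f g) _ hmax] at h1
  exact (Finsupp.mem_support_iff.mp hg₁) h1

/-- The support of a filtered part. -/
theorem support_part (γ : MonoidAlgebra K G) (P : G → Prop) [DecidablePred P] :
    (MonoidAlgebra.ofCoeff (γ.coeff.filter P)).coeff.support = γ.coeff.support.filter P := by
  classical
  rw [MonoidAlgebra.coeff_ofCoeff, Finsupp.support_filter]

variable [NoZeroDivisors K]

/-- Local form of the descent along homomorphisms to a right-ordered group: the statement for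
all elements whose support is `S` itself, or a subset of `S` with at most half as many
elements, or a set with at most two elements. -/
theorem local_descent [Group A] [LinearOrder A] [MulRightStrictMono A]
    (hG : ∀ (g : G) (n : ℕ), 0 < n → g ^ n = 1 → g = 1)
    (S : Finset G)
    (hφ : ∀ T : Finset G, T ⊆ S → 3 ≤ T.card → (T = S ∨ 2 * T.card ≤ S.card) →
      ∃ φ : Subgroup.closure {z : G | ∃ g ∈ T, ∃ h ∈ T, z = g⁻¹ * h} →* A, φ ≠ 1) :
    ∀ n : ℕ, ∀ γ : MonoidAlgebra K G, γ ≠ 0 → γ.coeff.support ⊆ S →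
      γ.coeff.support.card = n →
      (γ.coeff.support = S ∨ 2 * n ≤ S.card ∨ n ≤ 2) →
      ∀ β : MonoidAlgebra K G, γ * β = 0 → β = 0 := by
  classical
  intro n
  induction n using Nat.strong_induction_on with
  | _ n ih =>
    intro γ hγ hsub hcard hcond β h
    by_contra hβ
    by_cases hn : n ≤ 2
    · exact hβ (two_term hG γ β hγ (by omega) h)
    have h3 : 3 ≤ γ.coeff.support.card := by omega
    have hcond' : γ.coeff.support = S ∨ 2 * γ.coeff.support.card ≤ S.card := by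
      rcases hcond with h1 | h1 | h1
      · exact Or.inl h1
      · right
        omega
      · omega
    obtain ⟨φ, hφne⟩ := hφ γ.coeff.support hsub h3 hcond'
    obtain ⟨g₀, hg₀⟩ := support_nonempty_of_ne_zero γ hγ
    have hsupp : ∀ g ∈ γ.coeff.support, g₀⁻¹ * g ∈ Subgroup.closure
        {z : G | ∃ g ∈ γ.coeff.support, ∃ h ∈ γ.coeff.support, z = g⁻¹ * h} :=
      fun g hg => Subgroup.subset_closure ⟨g₀, hg₀, g, hg, rfl⟩
    obtain ⟨β₁, hβ₁, hprod₁⟩ := sub_production _ φ g₀ γ β hβ h hsupp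
    obtain ⟨β₂, hβ₂, hprod₂⟩ := sub_production (A := Aᵒᵈ) _
      (show Subgroup.closure
        {z : G | ∃ g ∈ γ.coeff.support, ∃ h ∈ γ.coeff.support, z = g⁻¹ * h} →* Aᵒᵈ from φ)
      g₀ γ β hβ h hsupp
    have hprod₂' : MonoidAlgebra.ofCoeff (γ.coeff.filter (fun g => ∀ x ∈ γ.coeff.support,
        extHom (Subgroup.closure
          {z : G | ∃ g ∈ γ.coeff.support, ∃ h ∈ γ.coeff.support, z = g⁻¹ * h}) φ (g₀⁻¹ * g)
        ≤ extHom (Subgroup.closure
          {z : G | ∃ g ∈ γ.coeff.support, ∃ h ∈ γ.coeff.support, z = g⁻¹ * h}) φ (g₀⁻¹ * x)))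
        * β₂ = 0 := hprod₂
    -- the two extreme parts are disjoint, since the homomorphism is nontrivial
    have hdisj : Disjoint
        (γ.coeff.support.filter (fun g => ∀ x ∈ γ.coeff.support,
          extHom (Subgroup.closure
            {z : G | ∃ g ∈ γ.coeff.support, ∃ h ∈ γ.coeff.support, z = g⁻¹ * h}) φ (g₀⁻¹ * x)
          ≤ extHom (Subgroup.closure
            {z : G | ∃ g ∈ γ.coeff.support, ∃ h ∈ γ.coeff.support, z = g⁻¹ * h}) φ
              (g₀⁻¹ * g)))
        (γ.coeff.support.filter (fun g => ∀ x ∈ γ.coeff.support,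
          extHom (Subgroup.closure
            {z : G | ∃ g ∈ γ.coeff.support, ∃ h ∈ γ.coeff.support, z = g⁻¹ * h}) φ (g₀⁻¹ * g)
          ≤ extHom (Subgroup.closure
            {z : G | ∃ g ∈ γ.coeff.support, ∃ h ∈ γ.coeff.support, z = g⁻¹ * h}) φ
              (g₀⁻¹ * x))) := by
      rw [Finset.disjoint_left]
      intro g hg1 hg2
      rw [Finset.mem_filter] at hg1 hg2
      apply hφne
      apply hom_eq_one_of_const γ.coeff.support g₀ hg₀ φ
      intro a ha b hb
      exact (le_antisymm (hg1.2 a ha) (hg2.2 a ha)).trans (le_antisymm (hg2.2 b hb) (hg1.2 b hb))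
    have hunion := Finset.card_union_of_disjoint hdisj
    have hle := Finset.card_le_card (Finset.union_subset
      (Finset.filter_subset (fun g => ∀ x ∈ γ.coeff.support,
          extHom (Subgroup.closure
            {z : G | ∃ g ∈ γ.coeff.support, ∃ h ∈ γ.coeff.support, z = g⁻¹ * h}) φ (g₀⁻¹ * x)
          ≤ extHom (Subgroup.closure
            {z : G | ∃ g ∈ γ.coeff.support, ∃ h ∈ γ.coeff.support, z = g⁻¹ * h}) φ
              (g₀⁻¹ * g)) γ.coeff.support)
      (Finset.filter_subset (fun g => ∀ x ∈ γ.coeff.support,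
          extHom (Subgroup.closure
            {z : G | ∃ g ∈ γ.coeff.support, ∃ h ∈ γ.coeff.support, z = g⁻¹ * h}) φ (g₀⁻¹ * g)
          ≤ extHom (Subgroup.closure
            {z : G | ∃ g ∈ γ.coeff.support, ∃ h ∈ γ.coeff.support, z = g⁻¹ * h}) φ
              (g₀⁻¹ * x)) γ.coeff.support))
    have hSle : γ.coeff.support.card ≤ S.card := Finset.card_le_card hsub
    have hne₁ := top_part_ne_zero γ hγ (fun g => extHom (Subgroup.closure
      {z : G | ∃ g ∈ γ.coeff.support, ∃ h ∈ γ.coeff.support, z = g⁻¹ * h}) φ (g₀⁻¹ * g))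
    have hne₂ := top_part_ne_zero (A := Aᵒᵈ) γ hγ (fun g => extHom (Subgroup.closure
      {z : G | ∃ g ∈ γ.coeff.support, ∃ h ∈ γ.coeff.support, z = g⁻¹ * h}) φ (g₀⁻¹ * g))
    have hne₂' : MonoidAlgebra.ofCoeff (γ.coeff.filter (fun g => ∀ x ∈ γ.coeff.support,
        extHom (Subgroup.closure
          {z : G | ∃ g ∈ γ.coeff.support, ∃ h ∈ γ.coeff.support, z = g⁻¹ * h}) φ (g₀⁻¹ * g)
        ≤ extHom (Subgroup.closure
          {z : G | ∃ g ∈ γ.coeff.support, ∃ h ∈ γ.coeff.support, z = g⁻¹ * h}) φ (g₀⁻¹ * x)))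
        ≠ 0 := hne₂
    by_cases hhalf : 2 * (γ.coeff.support.filter (fun g => ∀ x ∈ γ.coeff.support,
          extHom (Subgroup.closure
            {z : G | ∃ g ∈ γ.coeff.support, ∃ h ∈ γ.coeff.support, z = g⁻¹ * h}) φ (g₀⁻¹ * x)
          ≤ extHom (Subgroup.closure
            {z : G | ∃ g ∈ γ.coeff.support, ∃ h ∈ γ.coeff.support, z = g⁻¹ * h}) φ
              (g₀⁻¹ * g))).card ≤ n
    · refine hβ₁ (ih _ ?_ _ hne₁ ?_ rfl ?_ β₁ hprod₁)
      · rw [support_part]
        omega
      · rw [support_part]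
        exact (Finset.filter_subset _ _).trans hsub
      · right
        left
        rw [support_part]
        omega
    · refine hβ₂ (ih _ ?_ _ hne₂' ?_ rfl ?_ β₂ hprod₂')
      · rw [support_part]
        omega
      · rw [support_part]
        exact (Finset.filter_subset _ _).trans hsub
      · right
        left
        rw [support_part]
        omega

end Vale.Agent.Helper27.P201
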