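import Mathlib
import Vale.Agent.Helper27.P201.Abel

namespace Vale.Agent.Helper27.P201

open Finset

variable {K G A : Type*} [Semiring K] [Group G]

theorem hom_eq_one_of_gens [Group A] (k : Set G) (φ : Subgroup.closure k →* A)
    (hgen : ∀ g (hg : g ∈ k), φ ⟨g, Subgroup.subset_closure hg⟩ = 1) : φ = 1 := by
  ext ⟨z, hz⟩
  rw [MonoidHom.one_apply]
  induction hz using Subgroup.closure_induction with
  | mem x hx => exact hgen x hx
  | one => exact map_one φ
  | mul x y hx hy ihx ihy =>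
    have e : (⟨x * y, Subgroup.mul_mem _ hx hy⟩ : Subgroup.closure k) = ⟨x, hx⟩ * ⟨y, hy⟩ := rfl
    rw [e, map_mul, ihx, ihy, one_mul]
  | inv x hx ih =>
    have e : (⟨x⁻¹, Subgroup.inv_mem _ hx⟩ : Subgroup.closure k) = (⟨x, hx⟩)⁻¹ := rfl
    rw [e, map_inv, ih, inv_one]

open Classical in
theorem coeff_sum_single (e : Fin 5 → G) (c : Fin 5 → K) (g : G) :
    (∑ i, MonoidAlgebra.single (e i) (c i)).coeff g = ∑ i, if e i = g then c i else 0 := by
  rw [MonoidAlgebra.coeff_sum, Finsupp.finsetSum_apply]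
  apply Finset.sum_congr rfl
  intro i _
  rw [MonoidAlgebra.coeff_single, Finsupp.single_apply]

theorem coeff_sum_single_self (e : Fin 5 → G) (c : Fin 5 → K) (hinj : Function.Injective e)
    (i : Fin 5) : (∑ i, MonoidAlgebra.single (e i) (c i)).coeff (e i) = c i := by
  classical
  rw [coeff_sum_single]
  simp [hinj.eq_iff]

theorem support_sum_single (e : Fin 5 → G) (c : Fin 5 → K) (g : G)
    (hg : g ∈ (∑ i, MonoidAlgebra.single (e i) (c i)).coeff.support) : ∃ i, e i = g := by
  classical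
  by_contra hcon
  push Not at hcon
  rw [Finsupp.mem_support_iff, coeff_sum_single] at hg
  apply hg
  apply Finset.sum_eq_zero
  intro i _
  rw [if_neg (hcon i)]

theorem card_support_sum_single (e : Fin 5 → G) (c : Fin 5 → K) :
    (∑ i, MonoidAlgebra.single (e i) (c i)).coeff.support.card ≤ 5 := by
  classical
  have hsub : (∑ i, MonoidAlgebra.single (e i) (c i)).coeff.support
      ⊆ Finset.image e Finset.univ := by
    intro g hg
    obtain ⟨i, hi⟩ := support_sum_single e c g hg
    exact Finset.mem_image.mpr ⟨i, Finset.mem_univ i, hi⟩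
  calc (∑ i, MonoidAlgebra.single (e i) (c i)).coeff.support.card
      ≤ (Finset.image e Finset.univ).card := Finset.card_le_card hsub
    _ ≤ (Finset.univ : Finset (Fin 5)).card := Finset.card_image_le
    _ = 5 := by simp

variable [NoZeroDivisors K]

/-- Generic five-term lemma. -/
theorem gen5 [Group A] [LinearOrder A] [MulRightStrictMono A]
    (hG : ∀ (g : G) (n : ℕ), 0 < n → g ^ n = 1 → g = 1)
    (H : Subgroup G) (φ : H →* A) (e : Fin 5 → G) (c : Fin 5 → K)
    (hinj : Function.Injective e) (hc : ∀ i, c i ≠ 0) (hH : ∀ i, (e 0)⁻¹ * e i ∈ H)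
    (β : MonoidAlgebra K G) (hβ : β ≠ 0)
    (h : (∑ i, MonoidAlgebra.single (e i) (c i)) * β = 0) :
    ∀ i, extHom H φ ((e 0)⁻¹ * e i) = 1 := by
  classical
  intro i
  have hmem : ∀ j, e j ∈ (∑ i, MonoidAlgebra.single (e i) (c i)).coeff.support := by
    intro j
    rw [Finsupp.mem_support_iff, coeff_sum_single_self e c hinj j]
    exact hc j
  have hne : (∑ i, MonoidAlgebra.single (e i) (c i)) ≠ 0 := by
    intro h0
    have h1 := hmem 0
    rw [h0] at h1
    simp at h1
  have hsupp : ∀ g ∈ (∑ i, MonoidAlgebra.single (e i) (c i)).coeff.support,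
      (e 0)⁻¹ * g ∈ H := by
    intro g hg
    obtain ⟨j, rfl⟩ := support_sum_single e c g hg
    exact hH j
  have hconst := five_const hG H φ (e 0) _ β hne hβ h hsupp (card_support_sum_single e c)
    (e i) (hmem i) (e 0) (hmem 0)
  rw [hconst, inv_mul_cancel, extHom_one]

/-- A nonzero element with at most five terms supported in a subgroup generated by finitely
many pairwise commuting elements is not a left zero divisor. -/
theorem abelian_five (hG : ∀ (g : G) (n : ℕ), 0 < n → g ^ n = 1 → g = 1)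
    (k : Set G) (hk : k.Finite) (hcomm : ∀ x ∈ k, ∀ y ∈ k, x * y = y * x)
    (γ β : MonoidAlgebra K G) (hγ : γ ≠ 0) (hβ : β ≠ 0) (h : γ * β = 0)
    (hsupp : ∀ g ∈ γ.coeff.support, g ∈ Subgroup.closure k)
    (hcard : γ.coeff.support.card ≤ 5) : False := by
  classical
  obtain ⟨g₀, hg₀⟩ := support_nonempty_of_ne_zero γ hγ
  have hcard3 : 1 < γ.coeff.support.card := by
    by_contra hlt
    push Not at hlt
    exact hβ (two_term hG γ β hγ (by omega) h)
  obtain ⟨g₁, hg₁, hne⟩ := Finset.exists_mem_ne hcard3 g₀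
  have hsupp' : ∀ g ∈ γ.coeff.support, g₀⁻¹ * g ∈ Subgroup.closure k :=
    fun g hg => Subgroup.mul_mem _ (Subgroup.inv_mem _ (hsupp g₀ hg₀)) (hsupp g hg)
  have hz : (⟨g₀⁻¹ * g₁, hsupp' g₁ hg₁⟩ : Subgroup.closure k) ≠ 1 := by
    intro h1
    have h2 := congrArg Subtype.val h1
    simp only [Subgroup.coe_one] at h2
    exact hne (inv_mul_eq_one.mp h2).symm
  obtain ⟨φ, hφ⟩ := exists_hom_ne_one hG k hk hcomm _ hz
  have hconst := five_const hG _ φ g₀ γ β hγ hβ h hsupp' hcard g₁ hg₁ g₀ hg₀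
  rw [inv_mul_cancel, extHom_one, extHom_mem _ φ (hsupp' g₁ hg₁)] at hconst
  exact hφ hconst

end Vale.Agent.Helper27.P201
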