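import Mathlib
import Vale.Agent.Helper27.P201.Tri

namespace Vale.Agent.Helper27.P201

open Finset

variable {K G A : Type*} [CommRing K] [NoZeroDivisors K] [Group G]

open Classical in
theorem coeff_three (e₁ e₂ e₃ : G) (c₁ c₂ c₃ : K) (g : G) :
    (MonoidAlgebra.single e₁ c₁ + MonoidAlgebra.single e₂ c₂
      + MonoidAlgebra.single e₃ c₃).coeff g
    = (if e₁ = g then c₁ else 0) + (if e₂ = g then c₂ else 0) + (if e₃ = g then c₃ else 0) := by
  simp only [MonoidAlgebra.coeff_add, MonoidAlgebra.coeff_single, Finsupp.coe_add, Pi.add_apply,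
    Finsupp.single_apply]

theorem support_three (e₁ e₂ e₃ : G) (c₁ c₂ c₃ : K) (g : G)
    (hg : g ∈ (MonoidAlgebra.single e₁ c₁ + MonoidAlgebra.single e₂ c₂
      + MonoidAlgebra.single e₃ c₃).coeff.support) : g = e₁ ∨ g = e₂ ∨ g = e₃ := by
  classical
  by_contra hcon
  push Not at hcon
  rw [Finsupp.mem_support_iff, coeff_three] at hg
  apply hg
  rw [if_neg (Ne.symm hcon.1), if_neg (Ne.symm hcon.2.1), if_neg (Ne.symm hcon.2.2)]
  simp

theorem card_support_three (e₁ e₂ e₃ : G) (c₁ c₂ c₃ : K) :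
    (MonoidAlgebra.single e₁ c₁ + MonoidAlgebra.single e₂ c₂
      + MonoidAlgebra.single e₃ c₃).coeff.support.card ≤ 3 := by
  classical
  have hsub : (MonoidAlgebra.single e₁ c₁ + MonoidAlgebra.single e₂ c₂
      + MonoidAlgebra.single e₃ c₃).coeff.support ⊆ {e₁, e₂, e₃} := by
    intro g hg
    have h1 := support_three e₁ e₂ e₃ c₁ c₂ c₃ g hg
    simp only [Finset.mem_insert, Finset.mem_singleton]
    exact h1
  exact (Finset.card_le_card hsub).trans Finset.card_le_three

theorem card_support_two (e₁ e₂ : G) (c₁ c₂ : K) :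
    (MonoidAlgebra.single e₁ c₁ + MonoidAlgebra.single e₂ c₂).coeff.support.card ≤ 2 := by
  classical
  have hsub : (MonoidAlgebra.single e₁ c₁ + MonoidAlgebra.single e₂ c₂).coeff.support
      ⊆ {e₁, e₂} := by
    intro g hg
    rw [Finsupp.mem_support_iff] at hg
    simp only [MonoidAlgebra.coeff_add, MonoidAlgebra.coeff_single, Finsupp.coe_add,
      Pi.add_apply, Finsupp.single_apply] at hg
    simp only [Finset.mem_insert, Finset.mem_singleton]
    by_contra hcon
    push Not at hcon
    apply hg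
    rw [if_neg (Ne.symm hcon.1), if_neg (Ne.symm hcon.2)]
    simp
  exact (Finset.card_le_card hsub).trans Finset.card_le_two

/-- A trinomial that is a left zero divisor is nondegenerate. -/
theorem tri_nondeg (hG : ∀ (g : G) (n : ℕ), 0 < n → g ^ n = 1 → g = 1)
    (a b c : K) (x y : G) (β : MonoidAlgebra K G) (hβ : β ≠ 0)
    (hα : MonoidAlgebra.single 1 a + MonoidAlgebra.single x b + MonoidAlgebra.single y c ≠ 0)
    (h : (MonoidAlgebra.single 1 a + MonoidAlgebra.single x b + MonoidAlgebra.single y c) * β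
      = 0) :
    a ≠ 0 ∧ b ≠ 0 ∧ c ≠ 0 ∧ x ≠ 1 ∧ y ≠ 1 ∧ x ≠ y := by
  have key : ∀ (e₁ e₂ : G) (c₁ c₂ : K),
      MonoidAlgebra.single 1 a + MonoidAlgebra.single x b + MonoidAlgebra.single y c
        = MonoidAlgebra.single e₁ c₁ + MonoidAlgebra.single e₂ c₂ → False := by
    intro e₁ e₂ c₁ c₂ he
    apply hβ
    apply two_term hG _ β hα _ h
    rw [he]
    exact card_support_two e₁ e₂ c₁ c₂
  refine ⟨?_, ?_, ?_, ?_, ?_, ?_⟩
  · rintro rfl
    apply key x y b c
    rw [MonoidAlgebra.single_zero, zero_add]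
  · rintro rfl
    apply key 1 y a c
    rw [MonoidAlgebra.single_zero, add_zero]
  · rintro rfl
    apply key 1 x a b
    rw [MonoidAlgebra.single_zero, add_zero]
  · rintro rfl
    apply key 1 y (a + b) c
    rw [MonoidAlgebra.single_add]
  · rintro rfl
    apply key 1 x (a + c) b
    rw [MonoidAlgebra.single_add]
    abel
  · rintro rfl
    apply key 1 x a (b + c)
    rw [MonoidAlgebra.single_add]
    abel

theorem ident2 (a b c : K) (x y : G) :
    (MonoidAlgebra.single 1 a + MonoidAlgebra.single (x * y * x⁻¹) c - MonoidAlgebra.single x b)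
      * (MonoidAlgebra.single 1 a + MonoidAlgebra.single x b + MonoidAlgebra.single y c)
    = ∑ i : Fin 5, MonoidAlgebra.single (![1, y, x * y * x⁻¹, x * y * x⁻¹ * y, x ^ 2] i)
        (![a * a, a * c, c * a, c * c, -(b * b)] i) := by
  rw [Fin.sum_univ_five]
  simp only [sub_mul, add_mul, mul_add, MonoidAlgebra.single_mul_single, one_mul, mul_one,
    inv_mul_cancel_right, Matrix.cons_val_zero, Matrix.cons_val_one, Matrix.cons_val]
  rw [MonoidAlgebra.single_neg, mul_comm b a, mul_comm c b, pow_two]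
  abel

theorem ident4 (a b c : K) (x y : G) :
    (MonoidAlgebra.single 1 a - MonoidAlgebra.single x b - MonoidAlgebra.single y c)
      * (MonoidAlgebra.single 1 a + MonoidAlgebra.single x b + MonoidAlgebra.single y c)
    = ∑ i : Fin 5, MonoidAlgebra.single (![1, x ^ 2, x * y, y * x, y ^ 2] i)
        (![a * a, -(b * b), -(b * c), -(c * b), -(c * c)] i) := by
  rw [Fin.sum_univ_five]
  simp only [sub_mul, mul_add, MonoidAlgebra.single_mul_single, one_mul, mul_one,
    Matrix.cons_val_zero, Matrix.cons_val_one, Matrix.cons_val]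
  simp only [MonoidAlgebra.single_neg, mul_comm b a, mul_comm c a, pow_two]
  abel

theorem injective_five (e₁ e₂ e₃ e₄ e₅ : G) (h12 : e₁ ≠ e₂) (h13 : e₁ ≠ e₃) (h14 : e₁ ≠ e₄)
    (h15 : e₁ ≠ e₅) (h23 : e₂ ≠ e₃) (h24 : e₂ ≠ e₄) (h25 : e₂ ≠ e₅) (h34 : e₃ ≠ e₄)
    (h35 : e₃ ≠ e₅) (h45 : e₄ ≠ e₅) : Function.Injective ![e₁, e₂, e₃, e₄, e₅] := by
  rw [← List.nodup_ofFn]
  simp only [List.ofFn_succ, List.ofFn_zero, Matrix.cons_val_zero, Matrix.cons_val_succ,
    Fin.succ_zero_eq_one, Matrix.cons_val_one]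
  simp [h12, h13, h14, h15, h23, h24, h25, h34, h35, h45]

/-- The case of commuting `x`, `y`: the trinomial is not a left zero divisor. -/
theorem tri_comm (hG : ∀ (g : G) (n : ℕ), 0 < n → g ^ n = 1 → g = 1)
    (a b c : K) (x y : G) (β : MonoidAlgebra K G) (hβ : β ≠ 0)
    (hα : MonoidAlgebra.single 1 a + MonoidAlgebra.single x b + MonoidAlgebra.single y c ≠ 0)
    (h : (MonoidAlgebra.single 1 a + MonoidAlgebra.single x b + MonoidAlgebra.single y c) * β
      = 0) (hxy : x * y = y * x) : False := by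
  apply abelian_five hG {x, y} (Set.toFinite _) _ _ β hα hβ h
  · intro g hg
    rcases support_three 1 x y a b c g hg with rfl | rfl | rfl
    · exact Subgroup.one_mem _
    · exact Subgroup.subset_closure (by simp)
    · exact Subgroup.subset_closure (by simp)
  · exact (card_support_three 1 x y a b c).trans (by norm_num)
  · intro u hu v hv
    simp only [Set.mem_insert_iff, Set.mem_singleton_iff] at hu hv
    rcases hu with rfl | rfl <;> rcases hv with rfl | rfl
    · rfl
    · exact hxy
    · exact hxy.symm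
    · rfl

theorem tri_claim1 [Group A] [LinearOrder A] [MulRightStrictMono A]
    (hG : ∀ (g : G) (n : ℕ), 0 < n → g ^ n = 1 → g = 1)
    (a b c : K) (x y : G) (β : MonoidAlgebra K G) (hβ : β ≠ 0)
    (hα : MonoidAlgebra.single 1 a + MonoidAlgebra.single x b + MonoidAlgebra.single y c ≠ 0)
    (h : (MonoidAlgebra.single 1 a + MonoidAlgebra.single x b + MonoidAlgebra.single y c) * β
      = 0) (φ : Subgroup.closure {x, y} →* A) : φ = 1 := by
  classical
  obtain ⟨ha, hb, hc, hx, hy, hxy⟩ := tri_nondeg hG a b c x y β hβ hα h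
  have hsupp : ∀ g ∈ (MonoidAlgebra.single 1 a + MonoidAlgebra.single x b
      + MonoidAlgebra.single y c).coeff.support, (1 : G)⁻¹ * g ∈ Subgroup.closure {x, y} := by
    intro g hg
    rw [inv_one, one_mul]
    rcases support_three 1 x y a b c g hg with rfl | rfl | rfl
    · exact Subgroup.one_mem _
    · exact Subgroup.subset_closure (by simp)
    · exact Subgroup.subset_closure (by simp)
  have hcard : (MonoidAlgebra.single 1 a + MonoidAlgebra.single x b
      + MonoidAlgebra.single y c).coeff.support.card ≤ 5 :=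
    (card_support_three 1 x y a b c).trans (by norm_num)
  have hconst := five_const hG _ φ 1 _ β hα hβ h hsupp hcard
  have m1 : (1 : G) ∈ (MonoidAlgebra.single 1 a + MonoidAlgebra.single x b
      + MonoidAlgebra.single y c).coeff.support := by
    rw [Finsupp.mem_support_iff, coeff_three, if_pos rfl, if_neg hx, if_neg hy]
    simpa using ha
  have mx : x ∈ (MonoidAlgebra.single 1 a + MonoidAlgebra.single x b
      + MonoidAlgebra.single y c).coeff.support := by
    rw [Finsupp.mem_support_iff, coeff_three, if_neg (Ne.symm hx), if_pos rfl,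
      if_neg (Ne.symm hxy)]
    simpa using hb
  have my : y ∈ (MonoidAlgebra.single 1 a + MonoidAlgebra.single x b
      + MonoidAlgebra.single y c).coeff.support := by
    rw [Finsupp.mem_support_iff, coeff_three, if_neg (Ne.symm hy), if_neg hxy, if_pos rfl]
    simpa using hc
  apply hom_eq_one_of_gens
  intro g hg
  rcases (show g = x ∨ g = y by simpa using hg) with rfl | rfl
  · have h1 := hconst g mx 1 m1
    rw [inv_one, one_mul, one_mul, extHom_one, extHom_mem _ φ (Subgroup.subset_closure hg)] at h1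
    exact h1
  · have h1 := hconst g my 1 m1
    rw [inv_one, one_mul, one_mul, extHom_one, extHom_mem _ φ (Subgroup.subset_closure hg)] at h1
    exact h1

theorem tri_claim2 [Group A] [LinearOrder A] [MulRightStrictMono A]
    (hG : ∀ (g : G) (n : ℕ), 0 < n → g ^ n = 1 → g = 1)
    (a b c : K) (x y : G) (β : MonoidAlgebra K G) (hβ : β ≠ 0)
    (hα : MonoidAlgebra.single 1 a + MonoidAlgebra.single x b + MonoidAlgebra.single y c ≠ 0)
    (h : (MonoidAlgebra.single 1 a + MonoidAlgebra.single x b + MonoidAlgebra.single y c) * β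
      = 0) (φ : Subgroup.closure {y, x * y * x⁻¹, x ^ 2} →* A) : φ = 1 := by
  classical
  obtain ⟨ha, hb, hc, hx, hy, hxy⟩ := tri_nondeg hG a b c x y β hβ hα h
  by_cases hcomm : x * y = y * x
  · exact (tri_comm hG a b c x y β hβ hα h hcomm).elim
  have hγ : (∑ i : Fin 5, MonoidAlgebra.single (![1, y, x * y * x⁻¹, x * y * x⁻¹ * y, x ^ 2] i)
        (![a * a, a * c, c * a, c * c, -(b * b)] i)) * β = 0 := by
    rw [← ident2, mul_assoc, h, mul_zero]
  have hx2 : x ^ 2 ≠ 1 := fun h2 => hx (hG x 2 (by norm_num) h2)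
  have h25 : y ≠ x ^ 2 := by
    intro hy2
    apply hcomm
    rw [hy2, ← pow_succ', ← pow_succ]
  have h35 : x * y * x⁻¹ ≠ x ^ 2 := by
    intro h4
    apply h25
    calc y = x⁻¹ * (x * y * x⁻¹) * x := by group
      _ = x⁻¹ * x ^ 2 * x := by rw [h4]
      _ = x ^ 2 := by group
  by_cases hB : x * y * x⁻¹ = y⁻¹
  · exfalso
    have h2 : x * y⁻¹ = y * x := by
      have h3 : x * y⁻¹ * x⁻¹ = y := by
        calc x * y⁻¹ * x⁻¹ = (x * y * x⁻¹)⁻¹ := by group
          _ = y := by rw [hB, inv_inv]
      calc x * y⁻¹ = x * y⁻¹ * x⁻¹ * x := by group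
        _ = y * x := by rw [h3]
    have h1 : x * y = y⁻¹ * x := by
      calc x * y = x * y * x⁻¹ * x := by group
        _ = y⁻¹ * x := by rw [hB]
    have hyx2 : y * x ^ 2 = x ^ 2 * y := by
      calc y * x ^ 2 = y * x * x := by rw [pow_two, mul_assoc]
        _ = x * y⁻¹ * x := by rw [h2]
        _ = x * (y⁻¹ * x) := by rw [mul_assoc]
        _ = x * (x * y) := by rw [h1]
        _ = x ^ 2 * y := by rw [pow_two, mul_assoc]
    apply abelian_five hG {y, x ^ 2} (Set.toFinite _) _ _ β _ hβ hγ
    · intro g hg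
      obtain ⟨i, rfl⟩ := support_sum_single _ _ g hg
      have hy' : y ∈ Subgroup.closure {y, x ^ 2} := Subgroup.subset_closure (by simp)
      have hx' : x ^ 2 ∈ Subgroup.closure {y, x ^ 2} := Subgroup.subset_closure (by simp)
      have hc' : x * y * x⁻¹ ∈ Subgroup.closure {y, x ^ 2} := by
        rw [hB]
        exact Subgroup.inv_mem _ hy'
      fin_cases i
      · exact Subgroup.one_mem _
      · exact hy'
      · exact hc'
      · exact Subgroup.mul_mem _ hc' hy'
      · exact hx'
    · exact card_support_sum_single _ _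
    · intro u hu v hv
      simp only [Set.mem_insert_iff, Set.mem_singleton_iff] at hu hv
      rcases hu with rfl | rfl <;> rcases hv with rfl | rfl
      · rfl
      · exact hyx2
      · exact hyx2.symm
      · rfl
    · intro h0
      have h3 := congrArg (fun γ : MonoidAlgebra K G => γ.coeff (x ^ 2)) h0
      simp only [MonoidAlgebra.coeff_zero, Finsupp.coe_zero, Pi.zero_apply] at h3
      rw [coeff_sum_single, Fin.sum_univ_five] at h3
      have e1 : (1 : G) ≠ x ^ 2 := Ne.symm hx2
      have e4 : x * y * x⁻¹ * y ≠ x ^ 2 := by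
        rw [hB, inv_mul_cancel]
        exact e1
      simp [e1, h25, h35, e4, hb] at h3
  · have h12 : (1 : G) ≠ y := Ne.symm hy
    have h13 : (1 : G) ≠ x * y * x⁻¹ := by
      intro h3
      exact hy (conj_eq_one_iff.mp h3.symm)
    have h14 : (1 : G) ≠ x * y * x⁻¹ * y := by
      intro h3
      exact hB (mul_eq_one_iff_eq_inv.mp h3.symm)
    have h15 : (1 : G) ≠ x ^ 2 := Ne.symm hx2
    have h23 : y ≠ x * y * x⁻¹ := by
      intro h3
      apply hcomm
      calc x * y = x * y * x⁻¹ * x := by group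
        _ = y * x := by rw [← h3]
    have h24 : y ≠ x * y * x⁻¹ * y := by
      intro h3
      exact h13 (right_eq_mul.mp h3).symm
    have h34 : x * y * x⁻¹ ≠ x * y * x⁻¹ * y := by
      intro h3
      exact hy (left_eq_mul.mp h3)
    have h45 : x * y * x⁻¹ * y ≠ x ^ 2 := by
      intro h3
      apply hxy
      have h4 : (y * x⁻¹) ^ 2 = 1 := by
        calc (y * x⁻¹) ^ 2 = x⁻¹ * (x * y * x⁻¹ * y) * x⁻¹ := by rw [pow_two]; group
          _ = x⁻¹ * x ^ 2 * x⁻¹ := by rw [h3]
          _ = 1 := by group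
      have h5 := hG _ 2 (by norm_num) h4
      exact (mul_inv_eq_one.mp h5).symm
    have hinj := injective_five _ _ _ _ _ h12 h13 h14 h15 h23 h24 h25 h34 h35 h45
    have hcoef : ∀ i : Fin 5, ![a * a, a * c, c * a, c * c, -(b * b)] i ≠ 0 := by
      intro i
      fin_cases i <;> simp [ha, hb, hc]
    have hy' : y ∈ Subgroup.closure {y, x * y * x⁻¹, x ^ 2} :=
      Subgroup.subset_closure (by simp)
    have hc' : x * y * x⁻¹ ∈ Subgroup.closure {y, x * y * x⁻¹, x ^ 2} :=
      Subgroup.subset_closure (by simp)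
    have hx' : x ^ 2 ∈ Subgroup.closure {y, x * y * x⁻¹, x ^ 2} :=
      Subgroup.subset_closure (by simp)
    have hH : ∀ i : Fin 5, (![1, y, x * y * x⁻¹, x * y * x⁻¹ * y, x ^ 2] 0)⁻¹
        * ![1, y, x * y * x⁻¹, x * y * x⁻¹ * y, x ^ 2] i
        ∈ Subgroup.closure {y, x * y * x⁻¹, x ^ 2} := by
      intro i
      rw [Matrix.cons_val_zero, inv_one, one_mul]
      fin_cases i
      · exact Subgroup.one_mem _
      · exact hy'
      · exact hc'
      · exact Subgroup.mul_mem _ hc' hy'
      · exact hx'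
    have hres := gen5 hG _ φ _ _ hinj hcoef hH β hβ hγ
    apply hom_eq_one_of_gens
    intro g hg
    rcases (show g = y ∨ g = x * y * x⁻¹ ∨ g = x ^ 2 by simpa using hg) with rfl | rfl | rfl
    · have h1 := hres 1
      rw [Matrix.cons_val_zero, inv_one, one_mul] at h1
      have h2 : extHom (Subgroup.closure {g, x * g * x⁻¹, x ^ 2}) φ g = 1 := h1
      rw [extHom_mem _ φ (Subgroup.subset_closure hg)] at h2
      exact h2
    · have h1 := hres 2
      rw [Matrix.cons_val_zero, inv_one, one_mul] at h1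
      have h2 : extHom (Subgroup.closure {y, x * y * x⁻¹, x ^ 2}) φ (x * y * x⁻¹) = 1 := h1
      rw [extHom_mem _ φ (Subgroup.subset_closure hg)] at h2
      exact h2
    · have h1 := hres 4
      rw [Matrix.cons_val_zero, inv_one, one_mul] at h1
      have h2 : extHom (Subgroup.closure {y, x * y * x⁻¹, x ^ 2}) φ (x ^ 2) = 1 := h1
      rw [extHom_mem _ φ (Subgroup.subset_closure hg)] at h2
      exact h2

theorem tri_claim4 [Group A] [LinearOrder A] [MulRightStrictMono A]
    (hG : ∀ (g : G) (n : ℕ), 0 < n → g ^ n = 1 → g = 1)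
    (a b c : K) (x y : G) (β : MonoidAlgebra K G) (hβ : β ≠ 0)
    (hα : MonoidAlgebra.single 1 a + MonoidAlgebra.single x b + MonoidAlgebra.single y c ≠ 0)
    (h : (MonoidAlgebra.single 1 a + MonoidAlgebra.single x b + MonoidAlgebra.single y c) * β
      = 0) (φ : Subgroup.closure {x ^ 2, x * y, y * x, y ^ 2} →* A) : φ = 1 := by
  classical
  obtain ⟨ha, hb, hc, hx, hy, hxy⟩ := tri_nondeg hG a b c x y β hβ hα h
  by_cases hcomm : x * y = y * x
  · exact (tri_comm hG a b c x y β hβ hα h hcomm).elim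
  have hγ : (∑ i : Fin 5, MonoidAlgebra.single (![1, x ^ 2, x * y, y * x, y ^ 2] i)
        (![a * a, -(b * b), -(b * c), -(c * b), -(c * c)] i)) * β = 0 := by
    rw [← ident4, mul_assoc, h, mul_zero]
  have hx2 : x ^ 2 ≠ 1 := fun h2 => hx (hG x 2 (by norm_num) h2)
  have hy2 : y ^ 2 ≠ 1 := fun h2 => hy (hG y 2 (by norm_num) h2)
  have h12 : (1 : G) ≠ x ^ 2 := Ne.symm hx2
  have h13 : (1 : G) ≠ x * y := by
    intro h3
    apply hcomm
    have h4 : y = x⁻¹ := (eq_inv_of_mul_eq_one_right h3.symm)
    rw [h4, mul_inv_cancel, inv_mul_cancel]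
  have h14 : (1 : G) ≠ y * x := by
    intro h3
    apply hcomm
    have h4 : x = y⁻¹ := (eq_inv_of_mul_eq_one_right h3.symm)
    rw [h4, mul_inv_cancel, inv_mul_cancel]
  have h15 : (1 : G) ≠ y ^ 2 := Ne.symm hy2
  have h23 : x ^ 2 ≠ x * y := by
    intro h3
    rw [pow_two] at h3
    exact hxy (mul_left_cancel h3)
  have h24 : x ^ 2 ≠ y * x := by
    intro h3
    rw [pow_two] at h3
    exact hxy (mul_right_cancel h3)
  have h34 : x * y ≠ y * x := hcomm
  have h35 : x * y ≠ y ^ 2 := by
    intro h3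
    rw [pow_two] at h3
    exact hxy (mul_right_cancel h3)
  have h45 : y * x ≠ y ^ 2 := by
    intro h3
    rw [pow_two] at h3
    exact hxy (mul_left_cancel h3)
  by_cases hC : x ^ 2 = y ^ 2
  · exfalso
    have hx2y : x ^ 2 * y = y * x ^ 2 := by
      rw [hC, ← pow_succ, ← pow_succ']
    have hx2x : x ^ 2 * x = x * x ^ 2 := by
      rw [← pow_succ, ← pow_succ']
    have c1 : x ^ 2 * (x * y) = x * y * x ^ 2 := by
      rw [← mul_assoc, hx2x, mul_assoc, hx2y, mul_assoc]
    have c2 : x ^ 2 * (y * x) = y * x * x ^ 2 := by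
      rw [← mul_assoc, hx2y, mul_assoc, hx2x, mul_assoc]
    have c3 : x * y * (y * x) = y * x * (x * y) := by
      have l : x * y * (y * x) = x ^ 2 * x ^ 2 := by
        calc x * y * (y * x) = x * y ^ 2 * x := by rw [pow_two]; group
          _ = x * x ^ 2 * x := by rw [hC]
          _ = x ^ 2 * x ^ 2 := by group
      have r : y * x * (x * y) = y ^ 2 * y ^ 2 := by
        calc y * x * (x * y) = y * x ^ 2 * y := by rw [pow_two]; group
          _ = y * y ^ 2 * y := by rw [hC]
          _ = y ^ 2 * y ^ 2 := by group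
      rw [l, r, hC]
    apply abelian_five hG {x ^ 2, x * y, y * x} (Set.toFinite _) _ _ β _ hβ hγ
    · intro g hg
      obtain ⟨i, rfl⟩ := support_sum_single _ _ g hg
      have hx' : x ^ 2 ∈ Subgroup.closure {x ^ 2, x * y, y * x} :=
        Subgroup.subset_closure (by simp)
      have hxy' : x * y ∈ Subgroup.closure {x ^ 2, x * y, y * x} :=
        Subgroup.subset_closure (by simp)
      have hyx' : y * x ∈ Subgroup.closure {x ^ 2, x * y, y * x} :=
        Subgroup.subset_closure (by simp)
      have hy' : y ^ 2 ∈ Subgroup.closure {x ^ 2, x * y, y * x} := by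
        rw [← hC]
        exact hx'
      fin_cases i
      · exact Subgroup.one_mem _
      · exact hx'
      · exact hxy'
      · exact hyx'
      · exact hy'
    · exact card_support_sum_single _ _
    · intro u hu v hv
      simp only [Set.mem_insert_iff, Set.mem_singleton_iff] at hu hv
      rcases hu with rfl | rfl | rfl <;> rcases hv with rfl | rfl | rfl
      · rfl
      · exact c1
      · exact c2
      · exact c1.symm
      · rfl
      · exact c3
      · exact c2.symm
      · exact c3.symm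
      · rfl
    · intro h0
      have h3 := congrArg (fun γ : MonoidAlgebra K G => γ.coeff 1) h0
      simp only [MonoidAlgebra.coeff_zero, Finsupp.coe_zero, Pi.zero_apply] at h3
      rw [coeff_sum_single, Fin.sum_univ_five] at h3
      simp [Ne.symm h12, Ne.symm h13, Ne.symm h14, Ne.symm h15, ha] at h3
  · have hinj := injective_five _ _ _ _ _ h12 h13 h14 h15 h23 h24 hC h34 h35 h45
    have hcoef : ∀ i : Fin 5, ![a * a, -(b * b), -(b * c), -(c * b), -(c * c)] i ≠ 0 := by
      intro i
      fin_cases i <;> simp [ha, hb, hc]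
    have hx' : x ^ 2 ∈ Subgroup.closure {x ^ 2, x * y, y * x, y ^ 2} :=
      Subgroup.subset_closure (by simp)
    have hxy' : x * y ∈ Subgroup.closure {x ^ 2, x * y, y * x, y ^ 2} :=
      Subgroup.subset_closure (by simp)
    have hyx' : y * x ∈ Subgroup.closure {x ^ 2, x * y, y * x, y ^ 2} :=
      Subgroup.subset_closure (by simp)
    have hy' : y ^ 2 ∈ Subgroup.closure {x ^ 2, x * y, y * x, y ^ 2} :=
      Subgroup.subset_closure (by simp)
    have hH : ∀ i : Fin 5, (![1, x ^ 2, x * y, y * x, y ^ 2] 0)⁻¹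
        * ![1, x ^ 2, x * y, y * x, y ^ 2] i
        ∈ Subgroup.closure {x ^ 2, x * y, y * x, y ^ 2} := by
      intro i
      rw [Matrix.cons_val_zero, inv_one, one_mul]
      fin_cases i
      · exact Subgroup.one_mem _
      · exact hx'
      · exact hxy'
      · exact hyx'
      · exact hy'
    have hres := gen5 hG _ φ _ _ hinj hcoef hH β hβ hγ
    apply hom_eq_one_of_gens
    intro g hg
    rcases (show g = x ^ 2 ∨ g = x * y ∨ g = y * x ∨ g = y ^ 2 by simpa using hg)
      with rfl | rfl | rfl | rfl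
    · have h1 := hres 1
      rw [Matrix.cons_val_zero, inv_one, one_mul] at h1
      have h2 : extHom (Subgroup.closure {x ^ 2, x * y, y * x, y ^ 2}) φ (x ^ 2) = 1 := h1
      rw [extHom_mem _ φ (Subgroup.subset_closure hg)] at h2
      exact h2
    · have h1 := hres 2
      rw [Matrix.cons_val_zero, inv_one, one_mul] at h1
      have h2 : extHom (Subgroup.closure {x ^ 2, x * y, y * x, y ^ 2}) φ (x * y) = 1 := h1
      rw [extHom_mem _ φ (Subgroup.subset_closure hg)] at h2
      exact h2
    · have h1 := hres 3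
      rw [Matrix.cons_val_zero, inv_one, one_mul] at h1
      have h2 : extHom (Subgroup.closure {x ^ 2, x * y, y * x, y ^ 2}) φ (y * x) = 1 := h1
      rw [extHom_mem _ φ (Subgroup.subset_closure hg)] at h2
      exact h2
    · have h1 := hres 4
      rw [Matrix.cons_val_zero, inv_one, one_mul] at h1
      have h2 : extHom (Subgroup.closure {x ^ 2, x * y, y * x, y ^ 2}) φ (y ^ 2) = 1 := h1
      rw [extHom_mem _ φ (Subgroup.subset_closure hg)] at h2
      exact h2

end Vale.Agent.Helper27.P201
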